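import Vale.Agent.P074.Var
import Mathlib.MeasureTheory.Covering.DensityTheorem
import Mathlib.MeasureTheory.Measure.Lebesgue.EqHaar
import Mathlib.Analysis.Convex.Measure
import Mathlib.MeasureTheory.Function.L2Space
import Mathlib.Logic.Equiv.Fin.Rotate

/-! Optimal maps are cyclically monotone and are subgradients of a convex Lipschitz function. -/

open MeasureTheory Set Filter Topology Metric Function
open scoped ENNReal NNReal RealInnerProductSpace

namespace Vale.Agent.P074

variable {d : ℕ}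

lemma lintegral_sq_eq {X : Type} [MeasurableSpace X] {μ : Measure X} {f : X → E d}
    (hf : Integrable (fun x => ‖f x‖ ^ 2) μ) :
    ∫⁻ x, ‖f x‖ₑ ^ 2 ∂μ = ENNReal.ofReal (∫ x, ‖f x‖ ^ 2 ∂μ) := by
  rw [ofReal_integral_eq_lintegral_ofReal hf (Eventually.of_forall fun x => sq_nonneg _)]
  refine lintegral_congr fun x => ?_
  rw [ENNReal.ofReal_pow (norm_nonneg _), ofReal_norm]

lemma swap_ineq {K : Set (E d)} {R L : ℝ} (hK : Src K R) {μ : Measure (E d)} {T : E d → E d}
    (hT : IsOptimalMap (unif K) μ T) (hb : ∀ x, ‖T x‖ ≤ L) {ι : Type} [Fintype ι] (w : ι → E d)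
    {ε : ℝ} (hdis : Pairwise (Disjoint on fun i => closedBall (w i) ε))
    (hsub : ∀ i, closedBall (w i) ε ⊆ K) (σ : Equiv.Perm ι) :
    0 ≤ ∑ i, ⟪w (σ i) - w i, ⨍ y in closedBall (w (σ i)) ε, T y⟫ := by
  classical
  have hprob := hK.prob
  obtain ⟨mT, hmap, hopt⟩ := hT
  set B : ι → Set (E d) := fun i => closedBall (w i) ε with hB
  have mB : ∀ i, MeasurableSet (B i) := fun i => isClosed_closedBall.measurableSet
  set τ : E d → E d := fun x => x + ∑ i, (B i).indicator (fun _ => w (σ i) - w i) x with hτ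
  have mτ : Measurable τ :=
    measurable_id.add (Finset.measurable_sum _ fun i _ => measurable_const.indicator (mB i))
  have τin : ∀ i, ∀ x ∈ B i, τ x = x + (w (σ i) - w i) := by
    intro i x hx
    simp only [hτ]
    rw [Finset.sum_eq_single i, indicator_of_mem hx]
    · intro j _ hji
      exact indicator_of_notMem (fun hj => Set.disjoint_left.1 (hdis hji) hj hx) _
    · simp
  have τout : ∀ x, x ∉ ⋃ i, B i → τ x = x := by
    intro x hx
    simp only [hτ]
    rw [Finset.sum_eq_zero, add_zero]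
    intro i _
    exact indicator_of_notMem (fun hi => hx (mem_iUnion.2 ⟨i, hi⟩)) _
  have mU : MeasurableSet (⋃ i, B i) := MeasurableSet.iUnion mB
  have hdec : (volume : Measure (E d)).restrict K =
      volume.restrict (K \ ⋃ i, B i) + ∑ i, volume.restrict (B i) := by
    rw [← Measure.sum_fintype, ← Measure.restrict_iUnion hdis mB,
      ← Measure.restrict_union disjoint_sdiff_left mU, sdiff_union_of_subset (iUnion_subset hsub)]
  have mpB : ∀ i, MeasurePreserving (fun x => x + (w (σ i) - w i)) (volume.restrict (B i))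
      (volume.restrict (B (σ i))) := by
    intro i
    have := (measurePreserving_add_right (volume : Measure (E d))
      (w (σ i) - w i)).restrict_preimage (mB (σ i))
    convert this using 2
    ext x
    simp only [hB, mem_preimage, mem_closedBall, dist_eq_norm]
    rw [show x + (w (σ i) - w i) - w (σ i) = x - w i by abel]
  have hτmap : ((volume : Measure (E d)).restrict K).map τ = volume.restrict K := by
    conv_lhs => rw [hdec]
    rw [Measure.map_add _ _ mτ, Measure.map_finset_sum mτ.aemeasurable, hdec]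
    congr 1
    · rw [Measure.map_congr (g := id), Measure.map_id]
      filter_upwards [ae_restrict_mem (hK.meas.diff mU)] with x hx
      exact τout x hx.2
    · rw [← Equiv.sum_comp σ (fun i => (volume : Measure (E d)).restrict (B i))]
      refine Finset.sum_congr rfl fun i _ => ?_
      rw [← (mpB i).map_eq]
      refine Measure.map_congr ?_
      filter_upwards [ae_restrict_mem (mB i)] with x hx
      exact τin i x hx
  have mp : MeasurePreserving τ (unif K) (unif K) :=
    ⟨mτ, by unfold unif; rw [Measure.map_smul, hτmap]⟩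
  have hR := hK.Rpos
  have j1 : Integrable (fun x => ‖x - T x‖ ^ 2) (unif K) := by
    refine hK.integrable_of_bound (by fun_prop) ((R + L) ^ 2) ?_
    filter_upwards [hK.ae_mem] with x hx
    rw [abs_of_nonneg (sq_nonneg _)]
    gcongr
    linarith [norm_sub_le x (T x), hK.bdd x hx, hb x]
  have j2 : Integrable (fun x => ‖x - T (τ x)‖ ^ 2) (unif K) := by
    refine hK.integrable_of_bound (by fun_prop) ((R + L) ^ 2) ?_
    filter_upwards [hK.ae_mem] with x hx
    rw [abs_of_nonneg (sq_nonneg _)]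
    gcongr
    linarith [norm_sub_le x (T (τ x)), hK.bdd x hx, hb (τ x)]
  have j3 : Integrable (fun x : E d => ‖x‖ ^ 2) (unif K) := hK.integrable (by fun_prop)
  have h1 := hopt (T ∘ τ) (mT.comp mτ) (by rw [← Measure.map_map mT mτ, mp.map_eq, hmap])
  simp only [comp_apply] at h1
  rw [lintegral_sq_eq j1, lintegral_sq_eq j2,
    ENNReal.ofReal_le_ofReal_iff (integral_nonneg fun x => sq_nonneg _)] at h1
  have i1 : ∫ x, ‖τ x - T (τ x)‖ ^ 2 ∂(unif K) = ∫ x, ‖x - T x‖ ^ 2 ∂(unif K) := by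
    conv_rhs => rw [← mp.map_eq]
    rw [integral_map mτ.aemeasurable (Measurable.aestronglyMeasurable (by fun_prop))]
  have i2 : ∫ x, ‖τ x‖ ^ 2 ∂(unif K) = ∫ x, ‖x‖ ^ 2 ∂(unif K) := by
    conv_rhs => rw [← mp.map_eq]
    rw [integral_map mτ.aemeasurable (Measurable.aestronglyMeasurable (by fun_prop))]
  have j4 : Integrable (fun x => ‖τ x - T (τ x)‖ ^ 2) (unif K) := mp.integrable_comp_of_integrable j1
  have j5 : Integrable (fun x => ‖τ x‖ ^ 2) (unif K) := mp.integrable_comp_of_integrable j3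
  have e1 : ∀ x, 2 * ⟪τ x - x, T (τ x)⟫ =
      (‖x - T (τ x)‖ ^ 2 - ‖τ x - T (τ x)‖ ^ 2) - (‖x‖ ^ 2 - ‖τ x‖ ^ 2) := by
    intro x
    rw [norm_sub_sq_real, norm_sub_sq_real, inner_sub_left]; ring
  have h2 : 0 ≤ ∫ x, 2 * ⟪τ x - x, T (τ x)⟫ ∂(unif K) := by
    simp only [e1]
    have a1 : Integrable (fun x => ‖x - T (τ x)‖ ^ 2 - ‖τ x - T (τ x)‖ ^ 2) (unif K) := j2.sub j4
    have a2 : Integrable (fun x => ‖x‖ ^ 2 - ‖τ x‖ ^ 2) (unif K) := j3.sub j5
    rw [integral_sub a1 a2, integral_sub j2 j4, integral_sub j3 j5]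
    linarith
  have j6 : Integrable (fun x => ⟪τ x - x, T (τ x)⟫) (volume.restrict K) := by
    have j7 : Integrable (fun x => 2 * ⟪τ x - x, T (τ x)⟫) (unif K) := by
      simp only [e1]; exact (j2.sub j4).sub (j3.sub j5)
    have j8 := (integrable_smul_measure (ENNReal.inv_ne_zero.2 hK.cpt.measure_lt_top.ne)
      (ENNReal.inv_ne_top.2 hK.vol_ne_zero)).1 j7
    simpa using j8.const_mul (1 / 2)
  have h3 : 0 ≤ ∫ x in K, ⟪τ x - x, T (τ x)⟫ := by
    rw [integral_const_mul] at h2
    unfold unif at h2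
    rw [integral_smul_measure, smul_eq_mul] at h2
    have hv : 0 < ((volume K)⁻¹).toReal := ENNReal.toReal_pos
      (ENNReal.inv_ne_zero.2 hK.cpt.measure_lt_top.ne) (ENNReal.inv_ne_top.2 hK.vol_ne_zero)
    exact nonneg_of_mul_nonneg_right (by linarith) hv
  rw [hdec] at h3 j6
  have j9 := integrable_add_measure.1 j6
  rw [integral_add_measure j9.1 j9.2,
    integral_finsetSum_measure (integrable_finsetSum_measure.1 j9.2)] at h3
  have z : ∫ x in K \ ⋃ i, B i, ⟪τ x - x, T (τ x)⟫ = 0 := by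
    refine setIntegral_eq_zero_of_forall_eq_zero fun x hx => ?_
    rw [τout x hx.2]; simp
  have jT : ∀ i, Integrable T (volume.restrict (B i)) := fun i =>
    Measure.integrableOn_of_bounded (isCompact_closedBall _ _).measure_lt_top.ne
      mT.aestronglyMeasurable (Eventually.of_forall hb)
  have e2 : ∀ i, ∫ x in B i, ⟪τ x - x, T (τ x)⟫ = ⟪w (σ i) - w i, ∫ y in B (σ i), T y⟫ := by
    intro i
    rw [← integral_inner (jT _), ← (mpB i).map_eq, integral_map (mpB i).measurable.aemeasurable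
      (measurable_const.inner mT).aestronglyMeasurable]
    refine setIntegral_congr_fun (mB i) fun x hx => ?_
    simp only [τin i x hx, add_sub_cancel_left]
  simp only [z, e2, zero_add] at h3
  have e3 : ∀ i, ⟪w (σ i) - w i, ⨍ y in closedBall (w (σ i)) ε, T y⟫ =
      (volume.real (closedBall (0 : E d) ε))⁻¹ * ⟪w (σ i) - w i, ∫ y in B (σ i), T y⟫ := by
    intro i
    rw [setAverage_eq, real_inner_smul_right, measureReal_def, Measure.addHaar_closedBall_center,
      measureReal_def]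
  simp only [e3, ← Finset.mul_sum]
  positivity

/-- good points: interior Lebesgue points -/
def Good (K : Set (E d)) (T : E d → E d) (x : E d) : Prop :=
  x ∈ interior K ∧ ∀ (n : ℕ) (w : ℝ → E d), (∀ᶠ ε in 𝓝[>] (0 : ℝ), x ∈ closedBall (w ε) (n * ε)) →
    Tendsto (fun ε => ⨍ y in closedBall (w ε) ε, T y) (𝓝[>] 0) (𝓝 (T x))

lemma ae_good {K : Set (E d)} {R L : ℝ} (hK : Src K R) {T : E d → E d} (mT : Measurable T)
    (hb : ∀ x, ‖T x‖ ≤ L) : ∀ᵐ x ∂(unif K), Good K T x := by
  have hli : LocallyIntegrable T volume :=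
    (memLp_top_of_bound mT.aestronglyMeasurable L (Eventually.of_forall hb)).locallyIntegrable le_top
  have h1 : ∀ᵐ x ∂(volume : Measure (E d)), ∀ (n : ℕ) (w : ℝ → E d),
      (∀ᶠ ε in 𝓝[>] (0 : ℝ), x ∈ closedBall (w ε) (n * ε)) →
      Tendsto (fun ε => ⨍ y in closedBall (w ε) ε, T y) (𝓝[>] 0) (𝓝 (T x)) := by
    refine ae_all_iff.2 fun n => ?_
    filter_upwards [IsUnifLocDoublingMeasure.ae_tendsto_average volume hli (n : ℝ)] with x hx w hw
    exact hx w id tendsto_id hw
  have h2 : ∀ᵐ x ∂(volume : Measure (E d)), x ∉ frontier K :=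
    measure_eq_zero_iff_ae_notMem.1 (hK.cvx.addHaar_frontier volume)
  have h3 : ∀ᵐ x ∂(unif K), _ := Measure.ae_smul_measure (ae_restrict_of_ae (h1.and h2)) _
  filter_upwards [h3, hK.ae_mem] with x hx hxK
  refine ⟨?_, hx.1⟩
  by_contra hc
  exact hx.2 ⟨subset_closure hxK, hc⟩

lemma cyc_mono (hd : 0 < d) {K : Set (E d)} {R L : ℝ} (hK : Src K R) {μ : Measure (E d)}
    {T : E d → E d} (hT : IsOptimalMap (unif K) μ T) (hb : ∀ x, ‖T x‖ ≤ L) {n : ℕ}
    (x : Fin n → E d) (hx : ∀ i, Good K T (x i)) (σ : Equiv.Perm (Fin n)) :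
    0 ≤ ∑ i, ⟪x (σ i) - x i, T (x (σ i))⟫ := by
  set e : E d := EuclideanSpace.single ⟨0, hd⟩ 1 with he
  have ne : ‖e‖ = 1 := by simp [he]
  set w : Fin n → ℝ → E d := fun i ε => x i + (3 * (i : ℝ) * ε) • e with hw
  have cw : ∀ i, Continuous (w i) := fun i => by simp only [hw]; fun_prop
  have tw : ∀ i, Tendsto (w i) (𝓝[>] 0) (𝓝 (x i)) := fun i => by
    have := ((cw i).tendsto 0).mono_left (nhdsWithin_le_nhds (s := Ioi 0))
    simpa [hw] using this
  have t0 : Tendsto (fun ε : ℝ => ε) (𝓝[>] 0) (𝓝 0) := nhdsWithin_le_nhds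
  have tavg : ∀ i, Tendsto (fun ε => ⨍ y in closedBall (w i ε) ε, T y) (𝓝[>] 0) (𝓝 (T (x i))) := by
    intro i
    refine (hx i).2 (3 * n) (w i) ?_
    filter_upwards [self_mem_nhdsWithin] with ε hε
    have hε' : 0 < ε := hε
    rw [mem_closedBall, dist_comm, dist_eq_norm]
    simp only [hw, add_sub_cancel_left, norm_smul, ne, mul_one, Real.norm_eq_abs]
    rw [abs_of_nonneg (by positivity)]
    have : (i : ℝ) ≤ n := by exact_mod_cast i.2.le
    push_cast
    gcongr
  have hlim : Tendsto (fun ε => ∑ i, ⟪w (σ i) ε - w i ε, ⨍ y in closedBall (w (σ i) ε) ε, T y⟫)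
      (𝓝[>] 0) (𝓝 (∑ i, ⟪x (σ i) - x i, T (x (σ i))⟫)) :=
    tendsto_finsetSum _ fun i _ => ((tw _).sub (tw _)).inner (tavg _)
  refine ge_of_tendsto hlim ?_
  have e1 : ∀ᶠ ε in 𝓝[>] (0 : ℝ), ∀ i, closedBall (w i ε) ε ⊆ K := by
    refine eventually_all.2 fun i => ?_
    obtain ⟨r, hr, hball⟩ := Metric.mem_nhds_iff.1 (mem_interior_iff_mem_nhds.1 (hx i).1)
    have h1 : Tendsto (fun ε => ε + dist (w i ε) (x i)) (𝓝[>] 0) (𝓝 (0 + dist (x i) (x i))) :=
      t0.add ((tw i).dist tendsto_const_nhds)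
    rw [dist_self, add_zero] at h1
    filter_upwards [h1.eventually (gt_mem_nhds hr)] with ε hε
    exact (closedBall_subset_ball' hε).trans hball
  have e2 : ∀ᶠ ε in 𝓝[>] (0 : ℝ), ∀ i j, i ≠ j → ε + ε < dist (w i ε) (w j ε) := by
    refine eventually_all.2 fun i => eventually_all.2 fun j => ?_
    by_cases hij : i = j
    · exact Eventually.of_forall fun _ h => absurd hij h
    by_cases hxx : x i = x j
    · filter_upwards [self_mem_nhdsWithin] with ε hε _
      have hε' : 0 < ε := hε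
      have h1 : w i ε - w j ε = (3 * ((i : ℝ) - j) * ε) • e := by
        simp only [hw, hxx]; module
      rw [dist_eq_norm, h1, norm_smul, ne, mul_one, Real.norm_eq_abs, abs_mul, abs_mul,
        abs_of_pos hε']
      have h2 : (1 : ℝ) ≤ |(i : ℝ) - j| := by
        have h3 : ((i : ℕ) : ℤ) - (j : ℕ) ≠ 0 := by
          intro h; apply hij; ext; omega
        have h4 := Int.one_le_abs h3
        exact_mod_cast h4
      rw [abs_of_pos (by norm_num : (0 : ℝ) < 3)]
      nlinarith
    · have h1 : Tendsto (fun ε => dist (w i ε) (w j ε) - (ε + ε)) (𝓝[>] 0)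
          (𝓝 (dist (x i) (x j) - (0 + 0))) := ((tw i).dist (tw j)).sub (t0.add t0)
      filter_upwards [h1.eventually (lt_mem_nhds
        (show (0 : ℝ) < dist (x i) (x j) - (0 + 0) by simpa using hxx))] with ε hε _
      linarith
  filter_upwards [e1, e2] with ε h1 h2
  exact swap_ineq hK hT hb (fun i => w i ε)
    (fun i j hij => closedBall_disjoint_closedBall (h2 i j hij)) h1 σ

/-- the affine function attached to a chain -/
noncomputable def chain (T : E d → E d) (n : ℕ) (c : ℕ → E d) (x : E d) : ℝ :=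
  ∑ i ∈ Finset.range n, ⟪T (c i), c (i + 1) - c i⟫ + ⟪T (c n), x - c n⟫

lemma chain_le (hd : 0 < d) {K : Set (E d)} {R L : ℝ} (hK : Src K R) {μ : Measure (E d)}
    {T : E d → E d} (hT : IsOptimalMap (unif K) μ T) (hb : ∀ x, ‖T x‖ ≤ L) (n : ℕ)
    (c : ℕ → E d) (hc : ∀ i, Good K T (c i)) : chain T n c (c 0) ≤ 0 := by
  have h := cyc_mono hd hK hT hb (fun i : Fin (n + 1) => c i) (fun i => hc i)
    (finRotate (n + 1)).symm
  rw [← Equiv.sum_comp (finRotate (n + 1))] at h
  simp only [Equiv.symm_apply_apply] at h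
  rw [Fin.sum_univ_castSucc] at h
  simp only [finRotate_apply, Fin.coeSucc_eq_succ,
    Fin.val_succ, Fin.val_castSucc, Fin.val_last, Fin.val_zero, Fin.last_add_one] at h
  rw [Fin.sum_univ_eq_sum_range (fun i => ⟪c i - c (i + 1), T (c i)⟫) n] at h
  unfold chain
  have e1 : ∀ a b : E d, ⟪T a, b - a⟫ = - ⟪a - b, T a⟫ := fun a b => by
    rw [real_inner_comm, ← inner_neg_left, neg_sub]
  simp only [e1, Finset.sum_neg_distrib]
  linarith

lemma exists_pot_of_bounded (hd : 0 < d) {K : Set (E d)} {R L : ℝ} (hK : Src K R) (hL : 0 < L)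
    {μ : Measure (E d)} {T : E d → E d} (hT : IsOptimalMap (unif K) μ T) (hb : ∀ x, ‖T x‖ ≤ L) :
    ∃ φ, IsPot K L T φ := by
  classical
  have hprob := hK.prob
  have hg := ae_good hK hT.1 hb
  obtain ⟨x₀, hx₀⟩ := hg.exists
  set J := {p : ℕ × (ℕ → E d) // p.2 0 = x₀ ∧ ∀ i, Good K T (p.2 i)}
  have : Nonempty J := ⟨⟨(0, fun _ => x₀), rfl, fun _ => hx₀⟩⟩
  set a : J → E d → ℝ := fun p x => chain T p.1.1 p.1.2 x with ha
  have alip : ∀ p x x', a p x - a p x' ≤ L * ‖x - x'‖ := by
    intro p x x'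
    have : a p x - a p x' = ⟪T (p.1.2 p.1.1), x - x'⟫ := by
      simp only [ha, chain, inner_sub_right]; ring
    rw [this]
    exact (real_inner_le_norm _ _).trans (by gcongr; exact hb _)
  have bdd : ∀ x, BddAbove (range fun p => a p x) := by
    intro x
    refine ⟨L * ‖x - x₀‖, ?_⟩
    rintro _ ⟨p, rfl⟩
    have h1 := chain_le hd hK hT hb p.1.1 p.1.2 p.2.2
    rw [p.2.1] at h1
    have h2 := alip p x x₀
    simp only [ha] at h2 ⊢
    linarith
  refine ⟨fun x => ⨆ p, a p x, hT.1, hL, fun x x' => ?_, fun x v => ?_, Eventually.of_forall hb, ?_⟩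
  · rw [sub_le_iff_le_add]
    refine ciSup_le fun p => ?_
    linarith [alip p x x', le_ciSup (bdd x') p]
  · rw [← le_div_iff₀' two_pos]
    refine ciSup_le fun p => ?_
    have : a p x = (a p (x + v) + a p (x - v)) / 2 := by
      simp only [ha, chain, inner_sub_right, inner_add_right]; ring
    linarith [le_ciSup (bdd (x + v)) p, le_ciSup (bdd (x - v)) p]
  · filter_upwards [hg] with x hx x'
    rw [← le_sub_iff_add_le]
    refine ciSup_le fun p => ?_
    obtain ⟨⟨n, c⟩, hc0, hc⟩ := p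
    have hq : (update c (n + 1) x) 0 = x₀ ∧ ∀ i, Good K T (update c (n + 1) x i) := by
      refine ⟨by rw [update_of_ne (by omega)]; exact hc0, fun i => ?_⟩
      by_cases hi : i = n + 1
      · rw [hi, update_self]; exact hx
      · rw [update_of_ne hi]; exact hc i
    have h1 := le_ciSup (bdd x') ⟨(n + 1, update c (n + 1) x), hq⟩
    have h2 : chain T (n + 1) (update c (n + 1) x) x' = chain T n c x + ⟪T x, x' - x⟫ := by
      unfold chain
      rw [Finset.sum_range_succ, update_self, update_of_ne (by omega)]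
      congr 2
      refine Finset.sum_congr rfl fun i hi => ?_
      have := Finset.mem_range.1 hi
      rw [update_of_ne (by omega), update_of_ne (by omega)]
    simp only [ha] at h1 ⊢
    linarith

theorem exists_pot (hd : 0 < d) {K : Set (E d)} {R L : ℝ} (hK : Src K R) (hL : 0 < L)
    {μ : Measure (E d)} {T : E d → E d} (hT : IsOptimalMap (unif K) μ T)
    (hb : ∀ᵐ x ∂(unif K), ‖T x‖ ≤ L) : ∃ φ, IsPot K L T φ := by
  classical
  set F : E d → E d := fun x => if ‖T x‖ ≤ L then T x else 0 with hF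
  have mT := hT.1
  have mF : Measurable F :=
    Measurable.ite (measurableSet_le mT.norm measurable_const) mT measurable_const
  have hFT : F =ᵐ[unif K] T := hb.mono fun x hx => if_pos hx
  have bF : ∀ x, ‖F x‖ ≤ L := fun x => by
    simp only [hF]; split_ifs with h
    · exact h
    · simpa using hL.le
  have hF' : IsOptimalMap (unif K) μ F := by
    refine ⟨mF, by rw [Measure.map_congr hFT, hT.2.1], fun S mS hS => ?_⟩
    refine le_trans (le_of_eq (lintegral_congr_ae ?_)) (hT.2.2 S mS hS)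
    filter_upwards [hFT] with x hx
    rw [hx]
  obtain ⟨φ, hφ⟩ := exists_pot_of_bounded hd hK hL hF' bF
  refine ⟨φ, mT, hL, hφ.lip, hφ.cvx, hb, ?_⟩
  filter_upwards [hφ.sub, hFT] with x hx hx'
  rwa [hx'] at hx

end Vale.Agent.P074
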