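import Mathlib.MeasureTheory.Function.LpSeminorm.Basic
import Mathlib.MeasureTheory.Measure.Haar.InnerProductSpace
import Mathlib.Analysis.InnerProductSpace.PiL2

/-! Definitions for P074: stability exponent of quadratic optimal transport maps. -/

open MeasureTheory Set
open scoped ENNReal NNReal

namespace Vale.Agent.P074

/-- Euclidean space `ℝ^d`. -/
abbrev E (d : ℕ) : Type := EuclideanSpace ℝ (Fin d)

/-- The uniform probability measure `|K|⁻¹ 1_K dx` on `K`. -/
noncomputable def unif {d : ℕ} (K : Set (E d)) : Measure (E d) :=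
  (volume K)⁻¹ • volume.restrict K

/-- `T` is a quadratic optimal transport map from `ρ` to `μ`: a Borel map pushing `ρ` to `μ`
that minimises `∫ |x - T x|² dρ` among all Borel maps pushing `ρ` to `μ`. -/
def IsOptimalMap {d : ℕ} (ρ μ : Measure (E d)) (T : E d → E d) : Prop :=
  Measurable T ∧ ρ.map T = μ ∧
    ∀ S : E d → E d, Measurable S → ρ.map S = μ →
      ∫⁻ x, ‖x - T x‖ₑ ^ 2 ∂ρ ≤ ∫⁻ x, ‖x - S x‖ₑ ^ 2 ∂ρ

/-- The Wasserstein distance `W₂(μ, ν)`: the infimum over couplings `π` of `μ` and `ν` of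
`(∫ |y - z|² dπ)^(1/2)`. -/
noncomputable def W2 {d : ℕ} (μ ν : Measure (E d)) : ℝ≥0∞ :=
  ⨅ (π : Measure (E d × E d)) (_ : π.map Prod.fst = μ) (_ : π.map Prod.snd = ν),
    (∫⁻ p, ‖p.1 - p.2‖ₑ ^ 2 ∂π) ^ (1 / 2 : ℝ)

/-- The exponent `α` is admissible in dimension `d`: for every compact convex `K` with nonempty
interior and every nonempty compact `Y` there is a finite constant `C` with
`‖T_μ - T_ν‖_{L²(ρ)} ≤ C W₂(μ, ν)^α` for all Borel probability measures `μ, ν` supported in `Y`,
where `ρ` is the uniform probability measure on `K` and `T_μ, T_ν` are optimal maps. -/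
def Admissible (d : ℕ) (α : ℝ) : Prop :=
  ∀ K : Set (E d), IsCompact K → Convex ℝ K → (interior K).Nonempty →
    ∀ Y : Set (E d), IsCompact Y → Y.Nonempty →
      ∃ C : ℝ≥0, ∀ μ ν : Measure (E d), IsProbabilityMeasure μ → IsProbabilityMeasure ν →
        μ Yᶜ = 0 → ν Yᶜ = 0 →
        ∀ T S : E d → E d, IsOptimalMap (unif K) μ T → IsOptimalMap (unif K) ν S →
          eLpNorm (fun x => T x - S x) 2 (unif K) ≤ C * W2 μ ν ^ α

end Vale.Agent.P074
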