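import Vale.Agent.P074.Var
import Mathlib.MeasureTheory.Group.Integral
import Mathlib.MeasureTheory.Measure.Lebesgue.EqHaar

/-! A reverse Poincaré inequality for differences of convex Lipschitz functions. -/

open MeasureTheory Set Filter Topology
open scoped ENNReal NNReal RealInnerProductSpace

namespace Vale.Agent.P074

variable {d : ℕ}

lemma integral_unif (K : Set (E d)) (f : E d → ℝ) :
    ∫ x, f x ∂(unif K) = (volume.real K)⁻¹ * ∫ x in K, f x := by
  unfold unif
  rw [integral_smul_measure, ENNReal.toReal_inv, smul_eq_mul, measureReal_def]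

lemma second_diff {K : Set (E d)} {R L : ℝ} (hK : Src K R) (hL : 0 < L) {φ : E d → ℝ}
    (lip : ∀ x x', φ x - φ x' ≤ L * ‖x - x'‖) (cvx : ∀ x v, 2 * φ x ≤ φ (x + v) + φ (x - v))
    {v : E d} (hv : ‖v‖ ≤ 1) :
    ∫ x, φ (x + v) - 2 * φ x + φ (x - v) ∂(unif K) ≤
      (volume.real K)⁻¹ * (volume.real (Metric.closedBall (0 : E d) (R + 2)) * (L * ‖v‖ ^ 2)) := by
  have cφ := continuous_of_lip lip
  have hR := hK.Rpos
  rw [integral_unif]
  refine mul_le_mul_of_nonneg_left ?_ (by positivity)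
  set χ : E d → ℝ := fun x => max 0 (R + 1 - ‖x‖) with hχ
  have cχ : Continuous χ := by simp only [hχ]; fun_prop
  have χ0 : ∀ x, R + 1 < ‖x‖ → χ x = 0 := fun x hx => max_eq_left (by linarith)
  have sχ : HasCompactSupport χ :=
    HasCompactSupport.intro (isCompact_closedBall 0 (R + 1)) fun x hx => χ0 x (by simpa using hx)
  have sχ' : HasCompactSupport fun x => χ (x + v) :=
    HasCompactSupport.intro (isCompact_closedBall 0 (R + 2)) fun x hx => χ0 _ (by
      have h1 : R + 2 < ‖x‖ := by simpa using hx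
      have h2 : ‖x‖ ≤ ‖x + v‖ + ‖v‖ := by simpa using norm_sub_le (x + v) v
      linarith)
  set F : E d → ℝ := fun x => φ (x + v) - φ x with hF
  have cF : Continuous F := by simp only [hF]; fun_prop
  have j1 : Integrable fun x => χ x * F x :=
    (cχ.mul cF).integrable_of_hasCompactSupport sχ.mul_right
  have j2 : Integrable fun x => χ x * F (x - v) :=
    Continuous.integrable_of_hasCompactSupport (by fun_prop) sχ.mul_right
  have j3 : Integrable fun x => χ (x + v) * F x :=
    Continuous.integrable_of_hasCompactSupport (by fun_prop) sχ'.mul_right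
  calc ∫ x in K, φ (x + v) - 2 * φ x + φ (x - v)
      = ∫ x, K.indicator (fun x => φ (x + v) - 2 * φ x + φ (x - v)) x :=
        (integral_indicator hK.meas).symm
    _ ≤ ∫ x, χ x * F x - χ x * F (x - v) := by
        refine integral_mono ((integrable_indicator_iff hK.meas).2
          (ContinuousOn.integrableOn_compact hK.cpt (by fun_prop))) (j1.sub j2) fun x => ?_
        have h1 : 0 ≤ φ (x + v) - 2 * φ x + φ (x - v) := by linarith [cvx x v]
        have h2 : χ x * F x - χ x * F (x - v) = χ x * (φ (x + v) - 2 * φ x + φ (x - v)) := by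
          simp only [hF, sub_add_cancel]; ring
        simp only
        rw [h2]
        by_cases hx : x ∈ K
        · rw [indicator_of_mem hx]
          refine le_mul_of_one_le_left h1 (le_max_of_le_right ?_)
          linarith [hK.bdd x hx]
        · rw [indicator_of_notMem hx]
          exact mul_nonneg (le_max_left _ _) h1
    _ = ∫ x, χ x * F x - χ (x + v) * F x := by
        rw [integral_sub j1 j2, integral_sub j1 j3,
          ← integral_add_right_eq_self (fun x => χ x * F (x - v)) v]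
        simp only [add_sub_cancel_right]
    _ ≤ ∫ x, (Metric.closedBall (0 : E d) (R + 2)).indicator (fun _ => L * ‖v‖ ^ 2) x := by
        refine integral_mono (j1.sub j3) ((integrable_indicator_iff
          Metric.isClosed_closedBall.measurableSet).2
          (continuousOn_const.integrableOn_compact (isCompact_closedBall _ _))) fun x => ?_
        simp only
        by_cases hx : x ∈ Metric.closedBall (0 : E d) (R + 2)
        · rw [indicator_of_mem hx, ← sub_mul]
          have h1 : |χ x - χ (x + v)| ≤ ‖v‖ := by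
            refine (abs_max_sub_max_le_max _ _ _ _).trans (max_le (by simp) ?_)
            have := abs_norm_sub_norm_le (x + v) x
            rw [add_sub_cancel_left] at this
            rwa [show R + 1 - ‖x‖ - (R + 1 - ‖x + v‖) = ‖x + v‖ - ‖x‖ by ring]
          have h2 : |F x| ≤ L * ‖v‖ := by
            have a1 := lip (x + v) x
            have a2 := lip x (x + v)
            rw [add_sub_cancel_left] at a1
            rw [sub_add_cancel_left, norm_neg] at a2
            rw [abs_le]; constructor <;> simp only [hF] <;> linarith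
          calc _ ≤ |(χ x - χ (x + v)) * F x| := le_abs_self _
            _ = |χ x - χ (x + v)| * |F x| := abs_mul _ _
            _ ≤ ‖v‖ * (L * ‖v‖) := by gcongr
            _ = _ := by ring
        · have h1 : R + 2 < ‖x‖ := by simpa using hx
          have h2 : ‖x‖ ≤ ‖x + v‖ + ‖v‖ := by simpa using norm_sub_le (x + v) v
          rw [indicator_of_notMem hx, χ0 x (by linarith), χ0 (x + v) (by linarith)]
          simp
    _ = _ := by
        rw [integral_indicator Metric.isClosed_closedBall.measurableSet]; simp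

lemma integrable_shift {K : Set (E d)} {R : ℝ} (hK : Src K R) {g : E d → ℝ} (cg : Continuous g)
    (v : E d) : Integrable (fun x => K.indicator g (x + v)) :=
  ((integrable_indicator_iff hK.meas).2
    (cg.continuousOn.integrableOn_compact hK.cpt)).comp_add_right v

lemma integrable_shift' {K : Set (E d)} {R : ℝ} (hK : Src K R) {g : E d → ℝ} (cg : Continuous g)
    (v : E d) : Integrable (fun x => K.indicator g (x + v)) (unif K) :=
  (integrable_shift hK cg v).restrict.smul_measure (ENNReal.inv_ne_top.2 hK.vol_ne_zero)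

lemma shift_le {K : Set (E d)} {R : ℝ} (hK : Src K R) {g : E d → ℝ} (cg : Continuous g)
    (g0 : ∀ x, 0 ≤ g x) (v : E d) :
    ∫ x, K.indicator g (x + v) ∂(unif K) ≤ ∫ x, g x ∂(unif K) := by
  rw [integral_unif, integral_unif]
  refine mul_le_mul_of_nonneg_left ?_ (by positivity)
  rw [← integral_indicator (f := g) hK.meas, ← integral_add_right_eq_self (K.indicator g) v]
  exact setIntegral_le_integral (integrable_shift hK cg v)
    (Eventually.of_forall fun x => indicator_nonneg (fun y _ => g0 y) _)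

lemma boundary_layer {K : Set (E d)} {R : ℝ} (hK : Src K R) : ∃ r > 0, ∀ v : E d, ‖v‖ ≤ r →
    (unif K).real {x | x + v ∉ K} ≤ d * (‖v‖ / r) := by
  have hprob := hK.prob
  obtain ⟨x₀, hx₀⟩ := hK.int
  obtain ⟨r, hr, hball⟩ := Metric.nhds_basis_closedBall.mem_iff.1 (mem_interior_iff_mem_nhds.1 hx₀)
  refine ⟨r, hr, fun v hv => ?_⟩
  set t := ‖v‖ / r with ht
  have t0 : 0 ≤ t := by positivity
  have t1 : t ≤ 1 := (div_le_one hr).2 hv
  set Kt := AffineMap.homothety x₀ (1 - t) '' K with hKt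
  have cKt : IsCompact Kt := hK.cpt.image (AffineMap.homothety_continuous _ _)
  have hmem : ∀ w : E d, ‖w‖ ≤ ‖v‖ → ∀ x ∈ Kt, x + w ∈ K := by
    rintro w hw _ ⟨k, hk, rfl⟩
    rcases eq_or_lt_of_le t0 with h0 | h0
    · have : ‖v‖ = 0 := by
        rw [ht, eq_comm, div_eq_zero_iff] at h0
        exact h0.resolve_right hr.ne'
      have hw0 : w = 0 := norm_le_zero_iff.1 (this ▸ hw)
      simpa [hw0, ← h0] using hk
    · have h1 : x₀ + t⁻¹ • w ∈ K := by
        refine hball ?_
        rw [mem_closedBall_iff_norm, add_sub_cancel_left, norm_smul, Real.norm_eq_abs,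
          abs_of_pos (inv_pos.2 h0), inv_mul_le_iff₀ h0, ht, div_mul_cancel₀ _ hr.ne']
        exact hw
      have h2 := hK.cvx hk h1 (sub_nonneg.2 t1) t0 (by ring)
      convert h2 using 1
      rw [AffineMap.homothety_apply, smul_add, smul_smul, mul_inv_cancel₀ h0.ne', one_smul,
        vsub_eq_sub, vadd_eq_add]
      module
  have hsub : Kt ⊆ K := fun x hx => by simpa using hmem 0 (by simp) x hx
  have h1 : (unif K).real Kt = (1 - t) ^ d := by
    simp only [measureReal_def, unif, Measure.smul_apply, Measure.restrict_apply cKt.measurableSet,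
      inter_eq_left.2 hsub, smul_eq_mul]
    rw [hKt, Measure.addHaar_image_homothety, mul_comm, mul_assoc,
      ENNReal.mul_inv_cancel hK.vol_ne_zero hK.cpt.measure_lt_top.ne, mul_one,
      ENNReal.toReal_ofReal (abs_nonneg _), abs_of_nonneg (pow_nonneg (sub_nonneg.2 t1) _)]
    simp
  calc (unif K).real {x | x + v ∉ K} ≤ (unif K).real Ktᶜ :=
        measureReal_mono fun x hx hx' => hx (hmem v le_rfl x hx')
    _ = 1 - (1 - t) ^ d := by rw [probReal_compl_eq_one_sub cKt.measurableSet, h1]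
    _ ≤ d * t := by
        have := one_add_mul_le_pow (a := -t) (by linarith) d
        rw [← sub_eq_add_neg] at this
        linarith

lemma directional {K : Set (E d)} {R L : ℝ} (hK : Src K R) {T₀ T₁ : E d → E d}
    {φ₀ φ₁ : E d → ℝ} (p0 : IsPot K L T₀ φ₀) (p1 : IsPot K L T₁ φ₁) (κ : ℝ) {v : E d}
    (hv : ‖v‖ ≤ 1) :
    ∫ x, ⟪T₀ x - T₁ x, v⟫ ^ 2 ∂(unif K) ≤ 8 * ∫ x, (φ₁ x - φ₀ x - κ) ^ 2 ∂(unif K)
      + 16 * L * ‖v‖ * ((volume.real K)⁻¹ *
        (volume.real (Metric.closedBall (0 : E d) (R + 2)) * (L * ‖v‖ ^ 2)))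
      + (2 * L * ‖v‖) ^ 2 * (unif K).real {x | x + v ∉ K} := by
  have hprob := hK.prob
  have hL := p0.Lpos
  have c0 := continuous_of_lip p0.lip
  have c1 := continuous_of_lip p1.lip
  set g : E d → ℝ := fun x => (φ₁ x - φ₀ x - κ) ^ 2 with hg
  have cg : Continuous g := by simp only [hg]; fun_prop
  have mB : MeasurableSet {x : E d | x + v ∉ K} :=
    (measurable_add_const v) hK.meas.compl
  have hb : ∀ᵐ x ∂(unif K), ⟪T₀ x - T₁ x, v⟫ ^ 2 ≤ (2 * L * ‖v‖) ^ 2 := by
    filter_upwards [p0.bdd, p1.bdd] with x h0 h1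
    rw [← sq_abs]
    have : |⟪T₀ x - T₁ x, v⟫| ≤ 2 * L * ‖v‖ := by
      refine (abs_real_inner_le_norm _ _).trans ?_
      gcongr
      linarith [norm_sub_le (T₀ x) (T₁ x)]
    gcongr
  have D2b : ∀ {φ : E d → ℝ}, (∀ x x', φ x - φ x' ≤ L * ‖x - x'‖) → ∀ x,
      φ (x + v) - 2 * φ x + φ (x - v) ≤ 2 * L * ‖v‖ := by
    intro φ lip x
    have a1 := lip (x + v) x
    have a2 := lip (x - v) x
    rw [add_sub_cancel_left] at a1
    rw [sub_sub_cancel_left, norm_neg] at a2
    linarith
  have j1 := integrable_shift' hK cg v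
  have j2 : Integrable ({x : E d | x + v ∉ K}.indicator fun _ => (2 * L * ‖v‖) ^ 2) (unif K) :=
    (integrable_const _).indicator mB
  have key : ∫ x, ⟪T₀ x - T₁ x, v⟫ ^ 2 ∂(unif K) ≤
      ∫ x, 4 * K.indicator g (x + v) + (4 * g x
        + 8 * L * ‖v‖ * (φ₀ (x + v) - 2 * φ₀ x + φ₀ (x - v))
        + 8 * L * ‖v‖ * (φ₁ (x + v) - 2 * φ₁ x + φ₁ (x - v)))
        + {x : E d | x + v ∉ K}.indicator (fun _ => (2 * L * ‖v‖) ^ 2) x ∂(unif K) := by
    refine integral_mono_ae (hK.integrable_of_bound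
      (((p0.meas.sub p1.meas).inner measurable_const).pow_const 2) ((2 * L * ‖v‖) ^ 2)
      (hb.mono fun x hx => by rwa [abs_of_nonneg (sq_nonneg _)]))
      (((j1.const_mul 4).add (hK.integrable (by fun_prop))).add j2) ?_
    filter_upwards [hb, p0.sub, p1.sub] with x hx s0 s1
    have D0 : 0 ≤ φ₀ (x + v) - 2 * φ₀ x + φ₀ (x - v) := by linarith [p0.cvx x v]
    have D1 : 0 ≤ φ₁ (x + v) - 2 * φ₁ x + φ₁ (x - v) := by linarith [p1.cvx x v]
    have hLv : 0 ≤ 8 * L * ‖v‖ := by positivity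
    have g0 : 0 ≤ g x := sq_nonneg _
    by_cases hxv : x + v ∈ K
    · rw [indicator_of_mem hxv, indicator_of_notMem (by simpa using hxv)]
      have a1 := s0 (x + v)
      have a2 := s1 (x - v)
      have a3 := s1 (x + v)
      have a4 := s0 (x - v)
      rw [add_sub_cancel_left] at a1 a3
      rw [sub_sub_cancel_left, inner_neg_right] at a2 a4
      have b0 := D2b p0.lip x
      have b1 := D2b p1.lip x
      rw [inner_sub_left]
      simp only [hg]
      set a := ⟪T₀ x, v⟫ - ⟪T₁ x, v⟫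
      set h := φ₁ x - φ₀ x - κ
      set h' := φ₁ (x + v) - φ₀ (x + v) - κ
      set A := φ₀ (x + v) - 2 * φ₀ x + φ₀ (x - v)
      set B := φ₁ (x + v) - 2 * φ₁ x + φ₁ (x - v)
      have e1 : a + (h' - h) ≤ B := by simp only [a, h, h', B]; linarith
      have e2 : -A ≤ a + (h' - h) := by simp only [a, h, h', A]; linarith
      have e3 : (a + (h' - h)) ^ 2 ≤ A ^ 2 + B ^ 2 := by
        rcases le_total 0 (a + (h' - h)) with hs | hs
        · have : (a + (h' - h)) ^ 2 ≤ B ^ 2 := by gcongr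
          linarith [sq_nonneg A]
        · have : (-(a + (h' - h))) ^ 2 ≤ A ^ 2 := by
            gcongr
            · linarith
            · linarith
          nlinarith [sq_nonneg B]
      have e4 : A ^ 2 ≤ 2 * L * ‖v‖ * A := by rw [sq]; gcongr
      have e5 : B ^ 2 ≤ 2 * L * ‖v‖ * B := by rw [sq]; gcongr
      have e6 : 0 ≤ 2 * L * ‖v‖ * A := by positivity
      have e7 : 0 ≤ 2 * L * ‖v‖ * B := by positivity
      nlinarith [sq_nonneg (a + 2 * (h' - h)), sq_nonneg (h' + h)]
    · rw [indicator_of_notMem hxv, indicator_of_mem (by simpa using hxv)]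
      nlinarith [mul_nonneg hLv D0, mul_nonneg hLv D1]
  have j3 : Integrable (fun x => 4 * K.indicator g (x + v) + (4 * g x
        + 8 * L * ‖v‖ * (φ₀ (x + v) - 2 * φ₀ x + φ₀ (x - v))
        + 8 * L * ‖v‖ * (φ₁ (x + v) - 2 * φ₁ x + φ₁ (x - v)))) (unif K) :=
    (j1.const_mul 4).add (hK.integrable (by fun_prop))
  rw [integral_add j3 j2,
    integral_add (j1.const_mul 4) (hK.integrable (by fun_prop)),
    integral_add (hK.integrable (by fun_prop)) (hK.integrable (by fun_prop)),
    integral_add (hK.integrable (by fun_prop)) (hK.integrable (by fun_prop)),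
    integral_const_mul, integral_const_mul, integral_const_mul, integral_const_mul,
    integral_indicator_const _ mB, smul_eq_mul] at key
  have s1 := shift_le hK cg (fun x => sq_nonneg _) v
  have s2 := mul_le_mul_of_nonneg_left (second_diff hK hL p0.lip p0.cvx hv)
    (show 0 ≤ 8 * L * ‖v‖ by positivity)
  have s3 := mul_le_mul_of_nonneg_left (second_diff hK hL p1.lip p1.cvx hv)
    (show 0 ≤ 8 * L * ‖v‖ by positivity)
  linarith

lemma IsPot.integrable_sq {K : Set (E d)} {R L : ℝ} (hK : Src K R) {T₀ T₁ : E d → E d}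
    {φ₀ φ₁ : E d → ℝ} (p0 : IsPot K L T₀ φ₀) (p1 : IsPot K L T₁ φ₁) :
    Integrable (fun x => ‖T₀ x - T₁ x‖ ^ 2) (unif K) ∧
      ∫ x, ‖T₀ x - T₁ x‖ ^ 2 ∂(unif K) ≤ (2 * L) ^ 2 := by
  have hprob := hK.prob
  have hb : ∀ᵐ x ∂(unif K), ‖T₀ x - T₁ x‖ ^ 2 ≤ (2 * L) ^ 2 := by
    filter_upwards [p0.bdd, p1.bdd] with x h0 h1
    have : ‖T₀ x - T₁ x‖ ≤ 2 * L := by linarith [norm_sub_le (T₀ x) (T₁ x)]
    gcongr
  have j : Integrable (fun x => ‖T₀ x - T₁ x‖ ^ 2) (unif K) :=
    hK.integrable_of_bound ((p0.meas.sub p1.meas).norm.pow_const 2) ((2 * L) ^ 2)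
      (hb.mono fun x hx => by rwa [abs_of_nonneg (sq_nonneg _)])
  refine ⟨j, ?_⟩
  calc _ ≤ ∫ _, (2 * L) ^ 2 ∂(unif K) := integral_mono_ae j (integrable_const _) hb
    _ = _ := by simp

theorem rev_poincare {K : Set (E d)} {R : ℝ} (hK : Src K R) {L : ℝ} (hL : 0 < L) :
    ∃ C > 0, ∀ (T₀ T₁ : E d → E d) (φ₀ φ₁ : E d → ℝ), IsPot K L T₀ φ₀ → IsPot K L T₁ φ₁ →
      ∀ κ δ : ℝ, 0 < δ → ∫ x, ‖T₀ x - T₁ x‖ ^ 2 ∂(unif K) ≤
        C * ((∫ x, (φ₁ x - φ₀ x - κ) ^ 2 ∂(unif K)) / δ ^ 2 + δ) := by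
  have hprob := hK.prob
  obtain ⟨r, hr, hbl⟩ := boundary_layer hK
  set A := (volume.real K)⁻¹ * volume.real (Metric.closedBall (0 : E d) (R + 2)) with hA
  have A0 : 0 ≤ A := by positivity
  set δ₀ := min 1 r with hδ₀
  have δ₀0 : 0 < δ₀ := lt_min one_pos hr
  set C₁ := 16 * L ^ 2 * A + 4 * L ^ 2 * d / r with hC₁
  have C₁0 : 0 ≤ C₁ := by positivity
  refine ⟨d * (8 + C₁) + (2 * L) ^ 2 / δ₀, by positivity, fun T₀ T₁ φ₀ φ₁ p0 p1 κ δ hδ => ?_⟩
  set N := ∫ x, (φ₁ x - φ₀ x - κ) ^ 2 ∂(unif K) with hN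
  have N0 : 0 ≤ N := integral_nonneg fun x => sq_nonneg _
  have Q0 : 0 ≤ N / δ ^ 2 := by positivity
  obtain ⟨j, jb⟩ := p0.integrable_sq hK p1
  rw [add_mul]
  by_cases hδδ : δ ≤ δ₀
  · refine le_add_of_le_of_nonneg ?_ (by positivity)
    have hc : ∀ i : Fin d, ∫ x, (T₀ x - T₁ x) i ^ 2 ∂(unif K) ≤ (8 + C₁) * (N / δ ^ 2 + δ) := by
      intro i
      set v : E d := EuclideanSpace.single i δ with hv
      have nv : ‖v‖ = δ := by simp [hv, abs_of_pos hδ]
      have h1 := directional hK p0 p1 κ (v := v) (by rw [nv]; exact hδδ.trans (min_le_left _ _))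
      have h2 := hbl v (by rw [nv]; exact hδδ.trans (min_le_right _ _))
      have e1 : ∫ x, ⟪T₀ x - T₁ x, v⟫ ^ 2 ∂(unif K) =
          δ ^ 2 * ∫ x, (T₀ x - T₁ x) i ^ 2 ∂(unif K) := by
        rw [← integral_const_mul]
        refine integral_congr_ae (Eventually.of_forall fun x => ?_)
        simp only [hv, EuclideanSpace.inner_single_right, conj_trivial]
        ring
      rw [e1, nv, ← hN, ← mul_assoc _ _ (L * δ ^ 2), ← hA] at h1
      rw [nv] at h2
      have h3 := mul_le_mul_of_nonneg_left h2 (show 0 ≤ (2 * L * δ) ^ 2 by positivity)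
      have h4 : δ ^ 2 * ∫ x, (T₀ x - T₁ x) i ^ 2 ∂(unif K) ≤ δ ^ 2 * (8 * (N / δ ^ 2) + C₁ * δ) := by
        refine h1.trans (le_trans (add_le_add_right h3 _) (le_of_eq ?_))
        rw [hC₁]; field_simp; ring
      have h5 := le_of_mul_le_mul_left h4 (by positivity)
      nlinarith [mul_nonneg C₁0 Q0]
    have e2 : ∫ x, ‖T₀ x - T₁ x‖ ^ 2 ∂(unif K) = ∑ i, ∫ x, (T₀ x - T₁ x) i ^ 2 ∂(unif K) := by
      rw [← integral_finsetSum]
      · refine integral_congr_ae (Eventually.of_forall fun x => ?_)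
        simp only [EuclideanSpace.real_norm_sq_eq]
      · intro i _
        have := p0.meas
        have := p1.meas
        refine j.mono' (Measurable.aestronglyMeasurable (by fun_prop))
          (Eventually.of_forall fun x => ?_)
        rw [norm_pow]
        gcongr
        exact PiLp.norm_apply_le _ i
    rw [e2]
    calc _ ≤ ∑ _i : Fin d, (8 + C₁) * (N / δ ^ 2 + δ) := Finset.sum_le_sum fun i _ => hc i
      _ = _ := by simp; ring
  · refine le_add_of_nonneg_of_le (by positivity) (jb.trans ?_)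
    have h1 : δ₀ ≤ N / δ ^ 2 + δ := by linarith [not_le.1 hδδ]
    calc (2 * L) ^ 2 = (2 * L) ^ 2 / δ₀ * δ₀ := by field_simp
      _ ≤ _ := by gcongr

end Vale.Agent.P074
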