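import Vale.Agent.P074.Stab
import Vale.Agent.P074.RevP
import Vale.Agent.P074.Cyc

/-! The exponent `1/3` is admissible. -/

open MeasureTheory Set Filter Topology
open scoped ENNReal NNReal

namespace Vale.Agent.P074

lemma real_opt {N C A c : ℝ} (hC : 0 < C) (hc : 0 ≤ c)
    (h : ∀ δ : ℝ, 0 < δ → N ≤ C * (A * c / δ ^ 2 + δ)) : N ≤ C * (A + 1) * c ^ (1 / 3 : ℝ) := by
  rcases hc.eq_or_lt with rfl | hc
  · rw [Real.zero_rpow (by norm_num), mul_zero]
    refine le_of_forall_pos_le_add fun ε hε => ?_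
    have := h (ε / C) (by positivity)
    rw [mul_zero, zero_div, zero_add, mul_div_cancel₀ _ hC.ne'] at this
    linarith
  · set δ := c ^ (1 / 3 : ℝ) with hδ
    have δ0 : 0 < δ := Real.rpow_pos_of_pos hc _
    have h3 : δ ^ 3 = c := by
      rw [hδ, ← Real.rpow_natCast, ← Real.rpow_mul hc.le]; norm_num
    have := h δ δ0
    rw [← h3] at this
    refine this.trans (le_of_eq ?_)
    field_simp

theorem admissible_third (d : ℕ) (hd : 0 < d) : Admissible d (1 / 3) := by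
  intro K hKc hKv hKi Y hY _
  obtain ⟨R, hR, hRK⟩ := hKc.isBounded.exists_pos_norm_le
  obtain ⟨L, hL, hLY⟩ := hY.isBounded.exists_pos_norm_le
  have hK : Src K R := ⟨hKc, hKv, hKi, hR, hRK⟩
  obtain ⟨C, hC, hrev⟩ := rev_poincare hK hL
  set D := C * (10000000 * R ^ 2 + 1) with hD
  have D0 : 0 < D := by positivity
  refine ⟨(D ^ (1 / 2 : ℝ)).toNNReal, fun μ ν hμ hν μY νY T S hT hS => ?_⟩
  have hb : ∀ {m : Measure (E d)} {F : E d → E d}, IsOptimalMap (unif K) m F → m Yᶜ = 0 →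
      ∀ᵐ x ∂(unif K), ‖F x‖ ≤ L := by
    intro m F hF hm
    have h1 : ∀ᵐ y ∂m, y ∈ Y := hm
    rw [← hF.2.1] at h1
    exact (ae_of_ae_map hF.1.aemeasurable h1).mono fun x hx => hLY _ hx
  obtain ⟨φ₀, p0⟩ := exists_pot hd hK hL hT (hb hT μY)
  obtain ⟨φ₁, p1⟩ := exists_pot hd hK hL hS (hb hS νY)
  have hD' : (0 : ℝ≥0∞) < ENNReal.ofReal (D ^ (1 / 2 : ℝ)) := ENNReal.ofReal_pos.2 (by positivity)
  change _ ≤ ENNReal.ofReal (D ^ (1 / 2 : ℝ)) * _
  rw [mul_comm, ← ENNReal.div_le_iff hD'.ne' ENNReal.ofReal_ne_top, one_div (3 : ℝ),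
    ENNReal.le_rpow_inv_iff (by norm_num)]
  refine le_iInf fun π => le_iInf fun h0 => le_iInf fun h1 => ?_
  rw [← ENNReal.le_rpow_inv_iff (by norm_num), ENNReal.div_le_iff hD'.ne' ENNReal.ofReal_ne_top]
  have hπ : IsProbabilityMeasure π := ⟨by
    have := congrArg (fun m : Measure (E d) => m univ) h0
    simpa [Measure.map_apply measurable_fst MeasurableSet.univ] using this⟩
  rw [← hT.2.1] at h0
  rw [← hS.2.1] at h1
  have hint : Integrable (fun p : E d × E d => ‖p.1 - p.2‖ ^ 2) π := by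
    refine integrable_of_ae_mem π ((isCompact_closedBall (0 : E d) L).prod
      (isCompact_closedBall (0 : E d) L)) ?_ (by fun_prop)
    filter_upwards [ae_mem_ball p0 measurable_fst h0, ae_mem_ball p1 measurable_snd h1] with p a b
    exact ⟨a, b⟩
  obtain ⟨κ, hκ⟩ := pot_stab hK p0 p1 π h0 h1
  set c := ∫ p, ‖p.1 - p.2‖ ^ 2 ∂π with hc
  have c0 : 0 ≤ c := integral_nonneg fun p => sq_nonneg _
  have key : ∫ x, ‖T x - S x‖ ^ 2 ∂(unif K) ≤ D * c ^ (1 / 3 : ℝ) := by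
    refine real_opt hC c0 fun δ hδ => (hrev T S φ₀ φ₁ p0 p1 κ δ hδ).trans ?_
    gcongr
  rw [eLpNorm_two_eq, lintegral_sq_eq (p0.integrable_sq hK p1).1, lintegral_sq_eq hint, ← hc]
  calc _ ≤ (ENNReal.ofReal (D * c ^ (1 / 3 : ℝ))) ^ (1 / 2 : ℝ) := by gcongr
    _ = _ := by
      rw [ENNReal.ofReal_mul D0.le, ENNReal.mul_rpow_of_nonneg _ _ (by norm_num),
        ENNReal.ofReal_rpow_of_pos D0, ← ENNReal.ofReal_rpow_of_nonneg c0 (by norm_num),
        ← ENNReal.rpow_mul, ← ENNReal.rpow_mul, mul_comm]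
      norm_num

theorem isGreatest_third (d : ℕ) (hd : 2 ≤ d) :
    IsGreatest {α : ℝ | α ∈ Set.Ioc 0 1 ∧ Admissible d α} (1 / 3) := by
  refine ⟨⟨⟨by norm_num, by norm_num⟩, admissible_third d (by omega)⟩, fun α hα => ?_⟩
  by_contra h
  exact not_admissible d hd α (not_le.1 h) hα.1.2 hα.2

end Vale.Agent.P074
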