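import Vale.Agent.P074.PLReal

/-! Stability of barycentres of soft Laguerre cells with respect to their masses. -/

open MeasureTheory Set Filter Topology
open scoped ENNReal NNReal RealInnerProductSpace

namespace Vale.Agent.P074

variable {d : ℕ}

lemma half_le_of_sq {a b r : ℝ} (ha : 0 < a) (hr : 0 < r) (h : r ^ 2 = a * b) (hab : a ≤ 4 * b) :
    a / 2 ≤ r := by
  have h1 : (a / 2) ^ 2 ≤ r ^ 2 := by rw [h]; nlinarith
  exact (sq_le_sq₀ (by positivity) hr.le).1 h1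

lemma amgm_gap {α β r : ℝ} (hα : 0 < α) (hβ : 0 < β) (hr : 0 < r) (hr2 : r ^ 2 = α * β) :
    α + β - 2 * r ≤ (α - β) ^ 2 / β := by
  rw [le_div_iff₀ hβ]
  have h2 : 2 * r ≤ α + β := by
    have h4 : (2 * r) ^ 2 ≤ (α + β) ^ 2 := by nlinarith [sq_nonneg (α - β)]
    exact (sq_le_sq₀ (by positivity) (by positivity)).1 h4
  have h3 : (α - β) ^ 2 = (α + β - 2 * r) * (α + β + 2 * r) := by linear_combination 4 * hr2
  rw [h3]
  exact mul_le_mul_of_nonneg_left (by linarith) (by linarith)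

lemma key_algebra {m b α β r σ A B ρu e : ℝ} (hm : 0 < m) (hb1 : m / 2 ≤ b) (hb2 : b ≤ 2 * m)
    (hα1 : m / 2 ≤ α) (hα2 : α ≤ m) (hβ1 : b / 2 ≤ β) (hβ2 : β ≤ b) (hr : 0 < r)
    (hr2 : r ^ 2 = α * β) (hρ : 0 ≤ ρu) (hB : |B| ≤ ρu * b) (he : e = m / α - b / β)
    (hσ : r * (1 + (((16 * e) * m - α / r * A) / α - ((16 * e) * b - α / r * B) / β
      - ((16 * e) ^ 2 / 32 + 8192 * (α / r * ρu) ^ 2)) / 2) ≤ σ) :
    α + β - 2 * σ ≤ 16 * (m - b) ^ 2 / m + A - B + 16386 * ρu ^ 2 * m := by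
  have hα : 0 < α := by linarith
  have hβ : 0 < β := by linarith
  have h0 : 2 * r + 8 * r * e ^ 2 - A + α * B / β - 8192 * (α ^ 2 / r) * ρu ^ 2 ≤ 2 * σ := by
    have e1 : ((16 * e) * m - α / r * A) / α - ((16 * e) * b - α / r * B) / β =
        16 * e * (m / α - b / β) - A / r + α * B / β / r := by field_simp; ring
    rw [e1, ← he] at hσ
    have e2 : 2 * (r * (1 + (16 * e * e - A / r + α * B / β / r
        - ((16 * e) ^ 2 / 32 + 8192 * (α / r * ρu) ^ 2)) / 2)) =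
        2 * r + 8 * r * e ^ 2 - A + α * B / β - 8192 * (α ^ 2 / r) * ρu ^ 2 := by
      field_simp; ring
    linarith
  have h1 := amgm_gap hα hβ hr hr2
  clear hσ
  have h2 : -(α * B / β) ≤ -B + (α - β) ^ 2 / β + ρu ^ 2 * β := by
    have e1 : -(α * B / β) = -B + -((α - β) * B) / β := by field_simp; ring
    have e2 : (α - β) ^ 2 / β + ρu ^ 2 * β = ((α - β) ^ 2 + ρu ^ 2 * β ^ 2) / β := by
      field_simp
    have h3 : -((α - β) * B) ≤ (α - β) ^ 2 + ρu ^ 2 * β ^ 2 := by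
      have h4 : -((α - β) * B) ≤ |α - β| * (ρu * (2 * β)) := by
        calc -((α - β) * B) ≤ |(α - β) * B| := neg_le_abs _
          _ = |α - β| * |B| := abs_mul _ _
          _ ≤ |α - β| * (ρu * b) := by gcongr
          _ ≤ |α - β| * (ρu * (2 * β)) := by gcongr; linarith
      nlinarith [sq_nonneg (|α - β| - ρu * β), sq_abs (α - β)]
    rw [e1, add_assoc, e2]
    gcongr
  have h3 : (α - β) ^ 2 ≤ 2 * (m - b) ^ 2 + 2 * e ^ 2 * β ^ 2 := by
    have e1 : α - β = α / m * ((m - b) - e * β) := by rw [he]; field_simp; ring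
    have h4 : (α / m) ^ 2 ≤ 1 := by
      have : α / m ≤ 1 := (div_le_one hm).2 hα2
      have h5 : 0 ≤ α / m := by positivity
      exact pow_le_one₀ h5 this
    rw [e1, mul_pow]
    calc _ ≤ 1 * ((m - b) - e * β) ^ 2 := by gcongr
      _ ≤ _ := by nlinarith [sq_nonneg ((m - b) + e * β)]
  have h4 : β / 2 ≤ r := half_le_of_sq hβ hr (by rw [hr2, mul_comm]) (by linarith)
  have h5 : α ^ 2 / r ≤ 2 * m := by
    rw [div_le_iff₀ hr]
    have h6 : α / 2 ≤ r := half_le_of_sq hα hr hr2 (by linarith)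
    calc α ^ 2 = 2 * α * (α / 2) := by ring
      _ ≤ 2 * m * r := by gcongr
  have h6 : (α - β) ^ 2 / β ≤ 8 * (m - b) ^ 2 / m + 2 * e ^ 2 * β := by
    have e1 : (2 * (m - b) ^ 2 + 2 * e ^ 2 * β ^ 2) / β = 2 * (m - b) ^ 2 / β + 2 * e ^ 2 * β := by
      field_simp
    have h7 : 2 * (m - b) ^ 2 / β ≤ 8 * (m - b) ^ 2 / m := by
      rw [div_le_div_iff₀ hβ hm]
      have h8 : m ≤ 4 * β := by linarith
      calc 2 * (m - b) ^ 2 * m ≤ 2 * (m - b) ^ 2 * (4 * β) := by gcongr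
        _ = _ := by ring
    calc _ ≤ (2 * (m - b) ^ 2 + 2 * e ^ 2 * β ^ 2) / β := by gcongr
      _ ≤ _ := by rw [e1]; linarith
  have h7 : 8192 * (α ^ 2 / r) * ρu ^ 2 ≤ 8192 * (2 * m) * ρu ^ 2 := by gcongr
  have h8 : ρu ^ 2 * β ≤ ρu ^ 2 * (2 * m) := by gcongr; linarith
  have h9 : 4 * e ^ 2 * β ≤ 8 * r * e ^ 2 := by
    calc 4 * e ^ 2 * β = 8 * (β / 2) * e ^ 2 := by ring
      _ ≤ _ := by gcongr
  have e3 : 16 * (m - b) ^ 2 / m = 2 * (8 * (m - b) ^ 2 / m) := by ring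
  rw [e3]
  linarith

/-- the inverse Gaussian weight -/
noncomputable def iw (R : ℝ) (x : E d) : ℝ := Real.exp (‖x‖ ^ 2 / (512 * R ^ 2))
/-- the Gaussian weight -/
noncomputable def wt (R : ℝ) (x : E d) : ℝ := Real.exp (-(‖x‖ ^ 2 / (512 * R ^ 2)))

lemma wt_mul_iw (R : ℝ) (x : E d) : wt R x * iw R x = 1 := by
  simp [wt, iw, ← Real.exp_add]

lemma continuous_iw (R : ℝ) : Continuous (iw R : E d → ℝ) := by unfold iw; fun_prop
lemma continuous_wt (R : ℝ) : Continuous (wt R : E d → ℝ) := by unfold wt; fun_prop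
lemma wt_pos (R : ℝ) (x : E d) : 0 < wt R x := Real.exp_pos _
lemma wt_le_one (R : ℝ) (x : E d) : wt R x ≤ 1 :=
  Real.exp_le_one_iff.2 (neg_nonpos.2 (by positivity))

lemma arg_le {R : ℝ} (hR : 0 < R) {x : E d} (hx : ‖x‖ ≤ R) : ‖x‖ ^ 2 / (512 * R ^ 2) ≤ 1 / 2 := by
  rw [div_le_div_iff₀ (by positivity) (by norm_num)]
  have : ‖x‖ ^ 2 ≤ R ^ 2 := by gcongr
  nlinarith [sq_nonneg R]

lemma half_le_wt {R : ℝ} (hR : 0 < R) {x : E d} (hx : ‖x‖ ≤ R) : 1 / 2 ≤ wt R x := by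
  have := Real.add_one_le_exp (-(‖x‖ ^ 2 / (512 * R ^ 2)))
  have h2 := arg_le hR hx
  unfold wt; linarith

lemma iw_le_two {R : ℝ} (hR : 0 < R) {x : E d} (hx : ‖x‖ ≤ R) : iw R x ≤ 2 := by
  have h1 := half_le_wt hR hx
  have h2 := wt_mul_iw R x
  have h3 : 0 < iw R x := Real.exp_pos _
  nlinarith

lemma iw_sub_le {R : ℝ} (hR : 0 < R) {x y : E d} (hx : ‖x‖ ≤ R) (hy : ‖y‖ ≤ R) :
    iw R x - iw R y ≤ ‖x - y‖ / (128 * R) := by
  have h1 := iw_le_two hR hx
  have h3 : 0 < iw R x := Real.exp_pos _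
  set s := ‖x‖ ^ 2 / (512 * R ^ 2)
  set t := ‖y‖ ^ 2 / (512 * R ^ 2)
  have h4 : iw R x * (t - s + 1) ≤ iw R y := by
    have : iw R y = iw R x * Real.exp (t - s) := by
      unfold iw; rw [← Real.exp_add]; congr 1; ring
    rw [this]; gcongr; exact Real.add_one_le_exp _
  have h5 : s - t ≤ ‖x - y‖ / (256 * R) := by
    have h6 : ‖x‖ - ‖y‖ ≤ ‖x - y‖ := norm_sub_norm_le x y
    have h7 : ‖x‖ ^ 2 - ‖y‖ ^ 2 ≤ 2 * R * ‖x - y‖ := by
      nlinarith [norm_nonneg x, norm_nonneg y, norm_nonneg (x - y)]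
    calc s - t = (‖x‖ ^ 2 - ‖y‖ ^ 2) / (512 * R ^ 2) := by simp only [s, t]; ring
      _ ≤ 2 * R * ‖x - y‖ / (512 * R ^ 2) := by gcongr
      _ = _ := by field_simp; ring
  have h8 : 0 ≤ ‖x - y‖ / (256 * R) := by positivity
  have h9 : ‖x - y‖ / (128 * R) = 2 * (‖x - y‖ / (256 * R)) := by field_simp; ring
  nlinarith

lemma test_ineq {R : ℝ} (hR : 0 < R) (c : ℝ) (p : E d) {x y : E d} (hx : ‖x‖ ≤ R) (hy : ‖y‖ ≤ R) :
    (c + ⟪p, x⟫) * iw R x - (c + ⟪p, y⟫) * iw R y ≤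
      ‖x - y‖ ^ 2 / (1024 * R ^ 2) + (c ^ 2 / 32 + 8192 * (R * ‖p‖) ^ 2) := by
  set t := ‖x - y‖
  have ht : 0 ≤ t := norm_nonneg _
  have h1 : |iw R x - iw R y| ≤ t / (128 * R) := by
    rw [abs_le]
    have := iw_sub_le hR hy hx
    rw [norm_sub_rev] at this
    exact ⟨by linarith, iw_sub_le hR hx hy⟩
  have h2 : ⟪p, x - y⟫ * iw R x ≤ ‖p‖ * t * 2 := by
    have h3 : 0 < iw R x := Real.exp_pos _
    calc _ ≤ ‖p‖ * t * iw R x := by gcongr; exact real_inner_le_norm _ _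
      _ ≤ _ := by gcongr; exact iw_le_two hR hx
  have h3 : (c + ⟪p, y⟫) * (iw R x - iw R y) ≤ (|c| + ‖p‖ * R) * (t / (128 * R)) := by
    calc _ ≤ |(c + ⟪p, y⟫) * (iw R x - iw R y)| := le_abs_self _
      _ = |c + ⟪p, y⟫| * |iw R x - iw R y| := abs_mul _ _
      _ ≤ _ := by
        gcongr
        refine (abs_add_le _ _).trans ?_
        gcongr
        exact (abs_real_inner_le_norm _ _).trans (by gcongr)
  have e1 : (c + ⟪p, x⟫) * iw R x - (c + ⟪p, y⟫) * iw R y =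
      ⟪p, x - y⟫ * iw R x + (c + ⟪p, y⟫) * (iw R x - iw R y) := by
    rw [inner_sub_right]; ring
  rw [e1]
  set s := t / (32 * R) with hs
  have e2 : t ^ 2 / (1024 * R ^ 2) = s ^ 2 := by rw [hs]; field_simp; ring
  have e3 : ‖p‖ * t * 2 = 64 * (R * ‖p‖) * s := by rw [hs]; field_simp; ring
  have e4 : (|c| + ‖p‖ * R) * (t / (128 * R)) = (|c| + R * ‖p‖) * s / 4 := by
    rw [hs]; field_simp; ring
  have hs0 : 0 ≤ s := by positivity
  have hq : 0 ≤ R * ‖p‖ := by positivity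
  rw [e2]
  rw [e3] at h2
  rw [e4] at h3
  nlinarith [sq_nonneg (s - |c| / 4), sq_nonneg (s - 128 * (R * ‖p‖)), sq_abs c,
    mul_nonneg hs0 hq]

lemma wt_mid (R : ℝ) (x y : E d) :
    wt R ((1 / 2 : ℝ) • (x + y)) ^ 2 =
      wt R x * wt R y * Real.exp (‖x - y‖ ^ 2 / (1024 * R ^ 2)) := by
  unfold wt
  rw [← Real.exp_nat_mul, ← Real.exp_add, ← Real.exp_add]
  congr 1
  rw [norm_smul, mul_pow, norm_add_sq_real, norm_sub_sq_real]
  norm_num
  ring

lemma jensen_exp {K : Set (E d)} {R : ℝ} (hK : Src K R) {F g : E d → ℝ} (hF : Continuous F)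
    (hg : Continuous g) (F0 : ∀ x, 0 ≤ F x) (hpos : 0 < ∫ x, F x ∂(unif K)) :
    (∫ x, F x ∂(unif K)) * Real.exp ((∫ x, F x * g x ∂(unif K)) / ∫ x, F x ∂(unif K)) ≤
      ∫ x, F x * Real.exp (g x) ∂(unif K) := by
  set α := ∫ x, F x ∂(unif K)
  set t := (∫ x, F x * g x ∂(unif K)) / α with ht
  have h1 : ∫ x, Real.exp t * (F x * g x + (1 - t) * F x) ∂(unif K) ≤
      ∫ x, F x * Real.exp (g x) ∂(unif K) := by
    refine integral_mono (hK.integrable (by fun_prop)) (hK.integrable (by fun_prop)) fun x => ?_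
    have h2 : Real.exp (g x) = Real.exp t * Real.exp (g x - t) := by
      rw [← Real.exp_add]; congr 1; ring
    have h3 := Real.add_one_le_exp (g x - t)
    have h4 : 0 ≤ F x * Real.exp t := mul_nonneg (F0 x) (Real.exp_pos _).le
    simp only
    rw [h2]
    nlinarith [mul_le_mul_of_nonneg_left h3 h4]
  rw [integral_const_mul, integral_add (hK.integrable (by fun_prop)) (hK.integrable (by fun_prop)),
    integral_const_mul] at h1
  refine le_trans (le_of_eq ?_) h1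
  have : ∫ x, F x * g x ∂(unif K) = t * α := by rw [ht]; field_simp
  rw [this]; ring

lemma key_index {K : Set (E d)} {R : ℝ} (hK : Src K R) {P Q S : E d → ℝ} (cP : Continuous P)
    (cQ : Continuous Q) (cS : Continuous S) (P0 : ∀ x, 0 ≤ P x) (Q0 : ∀ x, 0 ≤ Q x)
    (S0 : ∀ x, 0 ≤ S x) (H : ∀ x y, P x * Q y ≤ S ((1 / 2 : ℝ) • (x + y)) ^ 2)
    {m : ℝ} (hm : 0 < m) (ha : ∫ x, P x ∂(unif K) = m)
    (hb1 : m / 2 ≤ ∫ x, Q x ∂(unif K)) (hb2 : ∫ x, Q x ∂(unif K) ≤ 2 * m) (u : E d) :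
    (∫ x, P x * wt R x ∂(unif K)) + (∫ x, Q x * wt R x ∂(unif K))
      - 2 * ∫ x, S x * wt R x ∂(unif K) ≤
      16 * (m - ∫ x, Q x ∂(unif K)) ^ 2 / m + (∫ x, P x * ⟪u, x⟫ ∂(unif K))
        - (∫ x, Q x * ⟪u, x⟫ ∂(unif K)) + 16386 * (R * ‖u‖) ^ 2 * m := by
  have hR := hK.Rpos
  have cw := continuous_wt (d := d) R
  have ciw := continuous_iw (d := d) R
  set b := ∫ x, Q x ∂(unif K) with hb
  set α := ∫ x, P x * wt R x ∂(unif K) with hα
  set β := ∫ x, Q x * wt R x ∂(unif K) with hβ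
  set σ := ∫ x, S x * wt R x ∂(unif K) with hσ
  set A := ∫ x, P x * ⟪u, x⟫ ∂(unif K) with hA
  set B := ∫ x, Q x * ⟪u, x⟫ ∂(unif K) with hB
  have wb : ∀ {F : E d → ℝ}, Continuous F → (∀ x, 0 ≤ F x) →
      (∫ x, F x ∂(unif K)) / 2 ≤ ∫ x, F x * wt R x ∂(unif K) ∧
      ∫ x, F x * wt R x ∂(unif K) ≤ ∫ x, F x ∂(unif K) := by
    intro F cF F0
    constructor
    · rw [← integral_div]
      refine integral_mono_ae (hK.integrable (by fun_prop)) (hK.integrable (by fun_prop)) ?_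
      filter_upwards [hK.ae_mem] with x hx
      have := mul_le_mul_of_nonneg_left (half_le_wt hR (hK.bdd x hx)) (F0 x)
      linarith
    · refine integral_mono (hK.integrable (by fun_prop)) (hK.integrable cF) fun x => ?_
      exact mul_le_of_le_one_right (F0 x) (wt_le_one R x)
  have hα12 := wb cP P0
  have hβ12 := wb cQ Q0
  rw [ha, ← hα] at hα12
  rw [← hb, ← hβ] at hβ12
  have αpos : 0 < α := by linarith [hα12.1]
  have βpos : 0 < β := by linarith [hβ12.1]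
  set r := Real.sqrt (α * β) with hr
  have rpos : 0 < r := Real.sqrt_pos.2 (by positivity)
  have hr2 : r ^ 2 = α * β := Real.sq_sqrt (by positivity)
  set e := m / α - b / β with he
  set c := 16 * e with hc
  set p : E d := -(α / r) • u with hp
  set Lsq := c ^ 2 / 32 + 8192 * (R * ‖p‖) ^ 2 with hL
  set g : E d → ℝ := fun x => (c + ⟪p, x⟫) * iw R x with hg
  have cg : Continuous g := by simp only [hg]; fun_prop
  have hBb : |B| ≤ R * ‖u‖ * b := by
    rw [hB, hb, ← integral_const_mul]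
    refine (abs_integral_le_integral_abs).trans ?_
    refine integral_mono_ae (hK.integrable (by fun_prop)) (hK.integrable (by fun_prop)) ?_
    filter_upwards [hK.ae_mem] with x hx
    rw [abs_mul, abs_of_nonneg (Q0 x), mul_comm]
    refine mul_le_mul_of_nonneg_right ?_ (Q0 x)
    refine (abs_real_inner_le_norm _ _).trans ?_
    rw [mul_comm]; gcongr; exact hK.bdd x hx
  have hpl := hK.pl (f := fun x => P x * wt R x * Real.exp (g x))
    (g := fun x => Q x * wt R x * Real.exp (-g x - Lsq)) (h := fun x => S x * wt R x)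
    (by fun_prop) (by fun_prop) (by fun_prop) (hK.integrable (by fun_prop))
    (hK.integrable (by fun_prop)) (hK.integrable (by fun_prop))
    (fun x => by have := P0 x; have := wt_pos R x; positivity)
    (fun x => by have := Q0 x; have := wt_pos R x; positivity)
    (fun x => by have := S0 x; have := wt_pos R x; positivity)
    (Eventually.of_forall fun z x hx y hy hz => by
      subst hz
      have h1 := test_ineq hR c p (hK.bdd x hx) (hK.bdd y hy)
      have h2 : Real.exp (g x) * Real.exp (-g y - Lsq) ≤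
          Real.exp (‖x - y‖ ^ 2 / (1024 * R ^ 2)) := by
        rw [← Real.exp_add]
        exact Real.exp_le_exp.2 (by simp only [hg]; linarith)
      have h3 := wt_pos R x
      have h4 := wt_pos R y
      rw [mul_pow, wt_mid]
      calc _ = (P x * Q y) * (wt R x * wt R y * (Real.exp (g x) * Real.exp (-g y - Lsq))) := by
            ring
        _ ≤ _ := by gcongr; exact H x y)
  have j1 := jensen_exp hK (F := fun x => P x * wt R x) (g := g) (by fun_prop) cg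
    (fun x => mul_nonneg (P0 x) (wt_pos R x).le) αpos
  have j2 := jensen_exp hK (F := fun x => Q x * wt R x) (g := fun x => -g x - Lsq) (by fun_prop)
    (by fun_prop) (fun x => mul_nonneg (Q0 x) (wt_pos R x).le) βpos
  have mom : ∀ {F : E d → ℝ}, Continuous F → ∫ x, F x * wt R x * g x ∂(unif K) =
      c * ∫ x, F x ∂(unif K) - α / r * ∫ x, F x * ⟪u, x⟫ ∂(unif K) := by
    intro F cF
    rw [← integral_const_mul, ← integral_const_mul,
      ← integral_sub (hK.integrable (by fun_prop)) (hK.integrable (by fun_prop))]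
    refine integral_congr_ae (Eventually.of_forall fun x => ?_)
    have := wt_mul_iw R x
    simp only [hg, hp, real_inner_smul_left]
    linear_combination (F x * (c - α / r * ⟪u, x⟫)) * this
  have m1 := mom cP
  have m2 : ∫ x, Q x * wt R x * (-g x - Lsq) ∂(unif K) = -(c * b - α / r * B) - Lsq * β := by
    rw [← mom cQ, hβ, ← integral_const_mul, ← integral_neg,
      ← integral_sub (hK.integrable (by fun_prop)) (hK.integrable (by fun_prop))]
    refine integral_congr_ae (Eventually.of_forall fun x => ?_)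
    ring
  rw [ha, ← hA] at m1
  simp only [← hα, ← hβ] at j1 j2
  rw [m1] at j1
  rw [m2] at j2
  set t := (c * m - α / r * A) / α - (c * b - α / r * B) / β - Lsq with ht
  have h5 : (r * Real.exp (t / 2)) ^ 2 ≤ σ ^ 2 := by
    refine le_trans (le_of_eq ?_) ((mul_le_mul j1 j2 (by positivity)
      (le_trans (by positivity) j1)).trans hpl)
    rw [mul_pow, hr2, ← Real.exp_nat_mul, mul_mul_mul_comm, ← Real.exp_add]
    congr 2
    rw [ht]; field_simp; ring
  have σ0 : 0 ≤ σ := integral_nonneg fun x => mul_nonneg (S0 x) (wt_pos R x).le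
  have h6 : r * Real.exp (t / 2) ≤ σ := (sq_le_sq₀ (by positivity) σ0).1 h5
  have h7 : r * (1 + t / 2) ≤ σ := by
    refine le_trans ?_ h6
    gcongr
    linarith [Real.add_one_le_exp (t / 2)]
  refine key_algebra hm hb1 hb2 hα12.1 hα12.2 hβ12.1 hβ12.2 rpos hr2 (by positivity) hBb he ?_
  have e1 : R * ‖p‖ = α / r * (R * ‖u‖) := by
    rw [hp, norm_smul, norm_neg, Real.norm_eq_abs, abs_of_pos (by positivity)]; ring
  rw [ht, hL, e1] at h7
  exact h7

/-- barycentre stability -/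
theorem key_sum {K : Set (E d)} {R : ℝ} (hK : Src K R) {ι : Type} [Fintype ι]
    {P Q S : ι → E d → ℝ} (cP : ∀ i, Continuous (P i))
    (cQ : ∀ i, Continuous (Q i)) (cS : ∀ i, Continuous (S i)) (P0 : ∀ i x, 0 ≤ P i x)
    (Q0 : ∀ i x, 0 ≤ Q i x) (S0 : ∀ i x, 0 ≤ S i x)
    (H : ∀ i x y, P i x * Q i y ≤ S i ((1 / 2 : ℝ) • (x + y)) ^ 2)
    (sP : ∀ x, ∑ i, P i x = 1) (sQ : ∀ x, ∑ i, Q i x = 1) (sS : ∀ x, ∑ i, S i x = 1)
    {m : ι → ℝ} (hm : ∀ i, 0 < m i) (ha : ∀ i, ∫ x, P i x ∂(unif K) = m i)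
    (hb1 : ∀ i, m i / 2 ≤ ∫ x, Q i x ∂(unif K)) (hb2 : ∀ i, ∫ x, Q i x ∂(unif K) ≤ 2 * m i)
    (u : ι → E d) :
    ∑ i, (∫ x, Q i x * ⟪u i, x⟫ ∂(unif K)) - ∑ i, (∫ x, P i x * ⟪u i, x⟫ ∂(unif K)) ≤
      16 * ∑ i, (m i - ∫ x, Q i x ∂(unif K)) ^ 2 / m i
        + 16386 * R ^ 2 * ∑ i, m i * ‖u i‖ ^ 2 := by
  have cw := continuous_wt (d := d) R
  have h := Finset.sum_le_sum fun i (_ : i ∈ Finset.univ) =>
    key_index hK (cP i) (cQ i) (cS i) (P0 i) (Q0 i) (S0 i) (H i) (hm i) (ha i) (hb1 i) (hb2 i) (u i)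
  have hs : ∀ {F : ι → E d → ℝ}, (∀ i, Continuous (F i)) → (∀ x, ∑ i, F i x = 1) →
      ∑ i, ∫ x, F i x * wt R x ∂(unif K) = ∫ x, wt R x ∂(unif K) := by
    intro F cF sF
    rw [← integral_finsetSum _ fun i _ => hK.integrable (by have := cF i; fun_prop)]
    refine integral_congr_ae (Eventually.of_forall fun x => ?_)
    simp only [← Finset.sum_mul, sF, one_mul]
  simp only [Finset.sum_add_distrib, Finset.sum_sub_distrib, ← Finset.mul_sum, hs cP sP, hs cQ sQ,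
    hs cS sS] at h
  have e1 : ∑ i, 16 * (m i - ∫ x, Q i x ∂(unif K)) ^ 2 / m i =
      16 * ∑ i, (m i - ∫ x, Q i x ∂(unif K)) ^ 2 / m i := by
    rw [Finset.mul_sum]; exact Finset.sum_congr rfl fun i _ => by ring
  have e2 : ∑ i, 16386 * (R * ‖u i‖) ^ 2 * m i = 16386 * R ^ 2 * ∑ i, m i * ‖u i‖ ^ 2 := by
    rw [Finset.mul_sum]; exact Finset.sum_congr rfl fun i _ => by ring
  rw [e1, e2] at h
  linarith

end Vale.Agent.P074
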