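import Vale.Agent.P074.Upper
import Vale.Agent.Lib.PL.Basic
import Mathlib.MeasureTheory.Function.LocallyIntegrable
import Mathlib.MeasureTheory.Integral.Bochner.ContinuousLinearMap

/-! Real-valued Prékopa–Leindler inequality for the uniform measure on a convex body. -/

open MeasureTheory Set Filter Topology
open scoped ENNReal NNReal RealInnerProductSpace

namespace Vale.Agent.P074

variable {d : ℕ}

/-- standing assumptions on the source -/
structure Src (K : Set (E d)) (R : ℝ) : Prop where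
  cpt : IsCompact K
  cvx : Convex ℝ K
  int : (interior K).Nonempty
  Rpos : 0 < R
  bdd : ∀ x ∈ K, ‖x‖ ≤ R

lemma Src.prob {K : Set (E d)} {R : ℝ} (h : Src K R) : IsProbabilityMeasure (unif K) :=
  isProb_unif h.cpt h.int

lemma Src.meas {K : Set (E d)} {R : ℝ} (h : Src K R) : MeasurableSet K := h.cpt.measurableSet

lemma Src.ae_mem {K : Set (E d)} {R : ℝ} (h : Src K R) : ∀ᵐ x ∂(unif K), x ∈ K :=
  ae_mem_unif h.meas

lemma Src.vol_ne_zero {K : Set (E d)} {R : ℝ} (h : Src K R) : volume K ≠ 0 :=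
  (Measure.measure_pos_of_nonempty_interior _ h.int).ne'

lemma Src.integrable {K : Set (E d)} {R : ℝ} (h : Src K R) {F : Type*} [NormedAddCommGroup F]
    {f : E d → F} (hf : Continuous f) : Integrable f (unif K) :=
  (hf.continuousOn.integrableOn_compact h.cpt).smul_measure (ENNReal.inv_ne_top.2 h.vol_ne_zero)

lemma Src.integrable_of_bound {K : Set (E d)} {R : ℝ} (h : Src K R) {f : E d → ℝ}
    (hf : Measurable f) (C : ℝ) (hC : ∀ᵐ x ∂(unif K), |f x| ≤ C) : Integrable f (unif K) := by
  have := h.prob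
  exact Integrable.of_bound hf.aestronglyMeasurable C hC

lemma Src.mid_mem {K : Set (E d)} {R : ℝ} (h : Src K R) {x y : E d} (hx : x ∈ K) (hy : y ∈ K) :
    (1 / 2 : ℝ) • (x + y) ∈ K := by
  rw [smul_add]
  exact h.cvx hx hy (by norm_num) (by norm_num) (by norm_num)

theorem Src.pl {K : Set (E d)} {R : ℝ} (hK : Src K R) {f g h : E d → ℝ}
    (mf : Measurable f) (mg : Measurable g) (mh : Measurable h)
    (jf : Integrable f (unif K)) (jg : Integrable g (unif K)) (jh : Integrable h (unif K))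
    (f0 : ∀ x, 0 ≤ f x) (g0 : ∀ x, 0 ≤ g x) (h0 : ∀ x, 0 ≤ h x)
    (H : ∀ᵐ m ∂(unif K), ∀ x ∈ K, ∀ y ∈ K, (1 / 2 : ℝ) • (x + y) = m → f x * g y ≤ h m ^ 2) :
    (∫ x, f x ∂(unif K)) * (∫ x, g x ∂(unif K)) ≤ (∫ x, h x ∂(unif K)) ^ 2 := by
  classical
  obtain ⟨N, hN, mN, N0⟩ := exists_measurable_superset_of_null (ae_iff.1 H)
  have key := PL.pl_euclidean d (K.indicator fun x => ENNReal.ofReal (f x))
    (K.indicator fun x => ENNReal.ofReal (g x))
    (K.indicator (N.piecewise (fun _ => ∞) fun x => ENNReal.ofReal (h x)))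
    (mf.ennreal_ofReal.indicator hK.meas) (mg.ennreal_ofReal.indicator hK.meas)
    ((measurable_const.piecewise mN mh.ennreal_ofReal).indicator hK.meas) (fun x y => by
      by_cases hx : x ∈ K
      swap
      · simp [hx]
      by_cases hy : y ∈ K
      swap
      · simp [hy]
      rw [indicator_of_mem hx, indicator_of_mem hy, indicator_of_mem (hK.mid_mem hx hy)]
      by_cases hm : (1 / 2 : ℝ) • (x + y) ∈ N
      · rw [piecewise_eq_of_mem _ _ _ hm]; simp
      · rw [piecewise_eq_of_notMem _ _ _ hm, ← ENNReal.ofReal_mul (f0 x),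
          ← ENNReal.ofReal_pow (h0 _)]
        refine ENNReal.ofReal_le_ofReal ?_
        by_contra hc
        exact hm (hN fun hall => hc (hall x hx y hy rfl)))
  rw [lintegral_indicator hK.meas, lintegral_indicator hK.meas, lintegral_indicator hK.meas] at key
  have key2 : (∫⁻ x, ENNReal.ofReal (f x) ∂(unif K)) * (∫⁻ x, ENNReal.ofReal (g x) ∂(unif K)) ≤
      (∫⁻ x, N.piecewise (fun _ => ∞) (fun x => ENNReal.ofReal (h x)) x ∂(unif K)) ^ 2 := by
    simp only [unif, lintegral_smul_measure, smul_eq_mul]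
    rw [mul_pow, mul_mul_mul_comm, sq]
    exact mul_le_mul_right key _
  have e : ∫⁻ x, N.piecewise (fun _ => ∞) (fun x => ENNReal.ofReal (h x)) x ∂(unif K) =
      ∫⁻ x, ENNReal.ofReal (h x) ∂(unif K) := by
    refine lintegral_congr_ae ?_
    filter_upwards [measure_eq_zero_iff_ae_notMem.1 N0] with x hx
    exact piecewise_eq_of_notMem _ _ _ hx
  rw [e, ← ofReal_integral_eq_lintegral_ofReal jf (Eventually.of_forall f0),
    ← ofReal_integral_eq_lintegral_ofReal jg (Eventually.of_forall g0),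
    ← ofReal_integral_eq_lintegral_ofReal jh (Eventually.of_forall h0),
    ← ENNReal.ofReal_mul (integral_nonneg f0), ← ENNReal.ofReal_pow (integral_nonneg h0),
    ENNReal.ofReal_le_ofReal_iff (sq_nonneg _)] at key2
  exact key2

end Vale.Agent.P074
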