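import Vale.Agent.P074.Key
import Mathlib.Analysis.Calculus.LocalExtr.Basic
import Mathlib.Analysis.SpecialFunctions.ExpDeriv

/-! Soft Laguerre cells, the regularised dual functional, and the mixed difference estimate. -/

open MeasureTheory Set Filter Topology
open scoped ENNReal NNReal RealInnerProductSpace

namespace Vale.Agent.P074

variable {d : ℕ} {ι : Type} [Fintype ι] [Nonempty ι]

/-- partition function -/
noncomputable def Zs (y : ι → E d) (ψ : ι → ℝ) (x : E d) : ℝ := ∑ j, Real.exp (⟪y j, x⟫ - ψ j)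
/-- soft cells -/
noncomputable def ps (y : ι → E d) (ψ : ι → ℝ) (i : ι) (x : E d) : ℝ :=
  Real.exp (⟪y i, x⟫ - ψ i) / Zs y ψ x
/-- soft maximum -/
noncomputable def lse (y : ι → E d) (ψ : ι → ℝ) (x : E d) : ℝ := Real.log (Zs y ψ x)
/-- the regularised dual functional -/
noncomputable def Phi (K : Set (E d)) (m : ι → ℝ) (τ : E d → ℝ) (y : ι → E d) (ψ : ι → ℝ) : ℝ :=
  ∫ x, lse y ψ x * τ x ∂(unif K) + ∑ i, m i * ψ i

lemma Zs_pos (y : ι → E d) (ψ : ι → ℝ) (x : E d) : 0 < Zs y ψ x :=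
  Finset.sum_pos (fun _ _ => Real.exp_pos _) Finset.univ_nonempty

omit [Nonempty ι] in
lemma continuous_Zs (y : ι → E d) (ψ : ι → ℝ) : Continuous (Zs y ψ) := by
  unfold Zs; fun_prop

lemma continuous_ps (y : ι → E d) (ψ : ι → ℝ) (i : ι) : Continuous (ps y ψ i) :=
  Continuous.div (by fun_prop) (continuous_Zs y ψ) fun x => (Zs_pos y ψ x).ne'

lemma continuous_lse (y : ι → E d) (ψ : ι → ℝ) : Continuous (lse y ψ) :=
  (continuous_Zs y ψ).log fun x => (Zs_pos y ψ x).ne'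

lemma ps_nonneg (y : ι → E d) (ψ : ι → ℝ) (i : ι) (x : E d) : 0 ≤ ps y ψ i x :=
  div_nonneg (Real.exp_pos _).le (Zs_pos y ψ x).le

lemma sum_ps (y : ι → E d) (ψ : ι → ℝ) (x : E d) : ∑ i, ps y ψ i x = 1 := by
  unfold ps
  rw [← Finset.sum_div]
  exact div_self (Zs_pos y ψ x).ne'

lemma ps_mid (y : ι → E d) (ψ₀ ψ₁ : ι → ℝ) (i : ι) (x x' : E d) :
    ps y ψ₀ i x * ps y ψ₁ i x' ≤
      ps y (fun j => (ψ₀ j + ψ₁ j) / 2) i ((1 / 2 : ℝ) • (x + x')) ^ 2 := by
  have e : ∀ j, Real.exp (⟪y j, (1 / 2 : ℝ) • (x + x')⟫ - (ψ₀ j + ψ₁ j) / 2) =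
      Real.exp ((⟪y j, x⟫ - ψ₀ j) / 2) * Real.exp ((⟪y j, x'⟫ - ψ₁ j) / 2) := by
    intro j
    rw [← Real.exp_add, real_inner_smul_right, inner_add_right]; congr 1; ring
  have e2 : ∀ t : ℝ, Real.exp (t / 2) ^ 2 = Real.exp t := by
    intro t; rw [← Real.exp_nat_mul]; congr 1; push_cast; ring
  have hZ : Zs y (fun j => (ψ₀ j + ψ₁ j) / 2) ((1 / 2 : ℝ) • (x + x')) ^ 2 ≤
      Zs y ψ₀ x * Zs y ψ₁ x' := by
    unfold Zs
    simp only [e]
    refine (Finset.sum_mul_sq_le_sq_mul_sq _ _ _).trans (le_of_eq ?_)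
    simp only [e2]
  unfold ps
  rw [div_pow, e, mul_pow, e2, e2, div_mul_div_comm]
  have := Zs_pos y (fun j => (ψ₀ j + ψ₁ j) / 2) ((1 / 2 : ℝ) • (x + x'))
  gcongr

lemma lse_ge (y y' : ι → E d) (ψ ψ' : ι → ℝ) (x : E d) :
    lse y ψ x + ∑ i, ps y ψ i x * (⟪y' i - y i, x⟫ - (ψ' i - ψ i)) ≤ lse y' ψ' x := by
  set t := ∑ i, ps y ψ i x * (⟪y' i - y i, x⟫ - (ψ' i - ψ i)) with ht
  have hZ := Zs_pos y ψ x
  have h1 : Zs y ψ x * Real.exp t ≤ Zs y' ψ' x := by
    have h2 : ∀ i, Zs y ψ x * Real.exp t *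
        (ps y ψ i x * (⟪y' i - y i, x⟫ - (ψ' i - ψ i)) + (1 - t) * ps y ψ i x) ≤
        Real.exp (⟪y' i, x⟫ - ψ' i) := by
      intro i
      have h3 : Real.exp (⟪y' i, x⟫ - ψ' i) = Zs y ψ x * Real.exp t * (ps y ψ i x *
          Real.exp (⟪y' i - y i, x⟫ - (ψ' i - ψ i) - t)) := by
        unfold ps
        field_simp
        rw [← Real.exp_add, ← Real.exp_add, inner_sub_left]; congr 1; ring
      rw [h3]
      have h4 := Real.add_one_le_exp (⟪y' i - y i, x⟫ - (ψ' i - ψ i) - t)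
      have h5 := mul_le_mul_of_nonneg_left h4 (ps_nonneg y ψ i x)
      gcongr
      linarith
    have h6 := Finset.sum_le_sum fun i (_ : i ∈ Finset.univ) => h2 i
    rw [← Finset.mul_sum, Finset.sum_add_distrib, ← Finset.mul_sum, sum_ps, ← ht] at h6
    simpa [Zs] using h6
  unfold lse
  calc Real.log (Zs y ψ x) + t = Real.log (Zs y ψ x * Real.exp t) := by
        rw [Real.log_mul hZ.ne' (Real.exp_pos _).ne', Real.log_exp]
    _ ≤ _ := Real.log_le_log (by positivity) h1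

lemma le_lse (y : ι → E d) (ψ : ι → ℝ) (i : ι) (x : E d) : ⟪y i, x⟫ - ψ i ≤ lse y ψ x := by
  unfold lse
  rw [Real.le_log_iff_exp_le (Zs_pos y ψ x)]
  exact Finset.single_le_sum (f := fun j => Real.exp (⟪y j, x⟫ - ψ j))
    (fun _ _ => (Real.exp_pos _).le) (Finset.mem_univ i)

lemma lse_le (y : ι → E d) (ψ : ι → ℝ) (x : E d) {c : ℝ} (h : ∀ i, ⟪y i, x⟫ - ψ i ≤ c) :
    lse y ψ x ≤ c + Real.log (Fintype.card ι) := by
  have hc : (0 : ℝ) < Fintype.card ι := by exact_mod_cast Fintype.card_pos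
  unfold lse
  rw [Real.log_le_iff_le_exp (Zs_pos y ψ x), Real.exp_add, Real.exp_log hc]
  calc Zs y ψ x ≤ ∑ _j : ι, Real.exp c := Finset.sum_le_sum fun j _ => Real.exp_le_exp.2 (h j)
    _ = _ := by simp [mul_comm]

/-- admissible source densities -/
structure Dens (K : Set (E d)) (τ : E d → ℝ) : Prop where
  cont : Continuous τ
  lower : ∀ x ∈ K, 1 / 2 ≤ τ x
  upper : ∀ x ∈ K, τ x ≤ 3 / 2
  total : ∫ x, τ x ∂(unif K) = 1

omit [Fintype ι] [Nonempty ι] in
lemma dens_one {K : Set (E d)} {R : ℝ} (hK : Src K R) : Dens K (fun _ => 1) := by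
  have := hK.prob
  exact ⟨continuous_const, fun _ _ => by norm_num, fun _ _ => by norm_num, by simp⟩

lemma subgrad {K : Set (E d)} {R : ℝ} (hK : Src K R) {τ : E d → ℝ} (hτ : Dens K τ) {m : ι → ℝ}
    {y : ι → E d} {ψ : ι → ℝ} (foc : ∀ i, ∫ x, ps y ψ i x * τ x ∂(unif K) = m i)
    (y' : ι → E d) (ψ' : ι → ℝ) :
    Phi K m τ y ψ + ∑ i, ∫ x, ps y ψ i x * τ x * ⟪y' i - y i, x⟫ ∂(unif K) ≤ Phi K m τ y' ψ' := by
  have cτ := hτ.cont
  have cp := continuous_ps y ψ
  have cl := continuous_lse y ψ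
  have h1 : ∫ x, lse y ψ x * τ x + ∑ i, (ps y ψ i x * τ x * ⟪y' i - y i, x⟫
      - (ψ' i - ψ i) * (ps y ψ i x * τ x)) ∂(unif K) ≤ ∫ x, lse y' ψ' x * τ x ∂(unif K) := by
    refine integral_mono_ae (hK.integrable (by fun_prop))
      (hK.integrable ((continuous_lse y' ψ').mul cτ)) ?_
    filter_upwards [hK.ae_mem] with x hx
    have h2 := mul_le_mul_of_nonneg_right (lse_ge y y' ψ ψ' x)
      (le_trans (by norm_num) (hτ.lower x hx))
    refine le_trans (le_of_eq ?_) h2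
    rw [add_mul, Finset.sum_mul]
    congr 1
    exact Finset.sum_congr rfl fun i _ => by ring
  rw [integral_add (hK.integrable (by fun_prop)) (hK.integrable (by fun_prop)),
    integral_finsetSum _ fun i _ => hK.integrable (by fun_prop)] at h1
  have h3 : ∀ i, ∫ x, ps y ψ i x * τ x * ⟪y' i - y i, x⟫ - (ψ' i - ψ i) * (ps y ψ i x * τ x)
      ∂(unif K) = ∫ x, ps y ψ i x * τ x * ⟪y' i - y i, x⟫ ∂(unif K) - (m i * ψ' i - m i * ψ i) := by
    intro i
    rw [integral_sub (hK.integrable (by fun_prop)) (hK.integrable (by fun_prop)),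
      integral_const_mul, foc]
    ring
  simp only [h3, Finset.sum_sub_distrib] at h1
  unfold Phi
  linarith

lemma Phi_shift {K : Set (E d)} {R : ℝ} (hK : Src K R) {τ : E d → ℝ} (hτ : Dens K τ) {m : ι → ℝ}
    (hs : ∑ i, m i = 1) (y : ι → E d) (ψ : ι → ℝ) (c : ℝ) :
    Phi K m τ y (fun i => ψ i - c) = Phi K m τ y ψ := by
  have cτ := hτ.cont
  have cl := continuous_lse y ψ
  have h1 : ∀ x, lse y (fun i => ψ i - c) x = lse y ψ x + c := by
    intro x
    have : Zs y (fun i => ψ i - c) x = Zs y ψ x * Real.exp c := by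
      unfold Zs
      rw [Finset.sum_mul]
      exact Finset.sum_congr rfl fun i _ => by rw [← Real.exp_add]; congr 1; ring
    unfold lse
    rw [this, Real.log_mul (Zs_pos y ψ x).ne' (Real.exp_pos _).ne', Real.log_exp]
  unfold Phi
  simp only [h1, add_mul, mul_sub, Finset.sum_sub_distrib, ← Finset.sum_mul, hs]
  rw [integral_add (hK.integrable (by fun_prop)) (hK.integrable (by fun_prop)), integral_const_mul,
    hτ.total]
  ring

lemma continuous_Phi {K : Set (E d)} {R : ℝ} (hK : Src K R) {τ : E d → ℝ} (hτ : Dens K τ)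
    (m : ι → ℝ) (y : ι → E d) : Continuous (Phi K m τ y) := by
  have cτ := hτ.cont
  refine Continuous.add ?_ (by fun_prop)
  refine (LipschitzWith.of_le_add (f := fun ψ => ∫ x, lse y ψ x * τ x ∂(unif K))
    fun ψ ψ' => ?_).continuous
  have cl := continuous_lse y ψ
  have cl' := continuous_lse y ψ'
  calc ∫ x, lse y ψ x * τ x ∂(unif K)
      ≤ ∫ x, lse y ψ' x * τ x + dist ψ ψ' * τ x ∂(unif K) := by
        refine integral_mono_ae (hK.integrable (by fun_prop)) (hK.integrable (by fun_prop)) ?_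
        filter_upwards [hK.ae_mem] with x hx
        rw [← add_mul]
        refine mul_le_mul_of_nonneg_right ?_ (le_trans (by norm_num) (hτ.lower x hx))
        have h1 := lse_ge y y ψ ψ' x
        have h2 : ∑ i, ps y ψ i x * (- dist ψ ψ') ≤
            ∑ i, ps y ψ i x * (⟪y i - y i, x⟫ - (ψ' i - ψ i)) := by
          refine Finset.sum_le_sum fun i _ => mul_le_mul_of_nonneg_left ?_ (ps_nonneg _ _ _ _)
          have h3 := dist_le_pi_dist ψ ψ' i
          rw [Real.dist_eq] at h3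
          simp only [sub_self, inner_zero_left]
          linarith [neg_abs_le (ψ i - ψ' i)]
        rw [← Finset.sum_mul, sum_ps] at h2
        linarith
    _ = _ := by
        rw [integral_add (hK.integrable (by fun_prop)) (hK.integrable (by fun_prop)),
          integral_const_mul, hτ.total, mul_one]

lemma exists_min {K : Set (E d)} {R : ℝ} (hK : Src K R) {τ : E d → ℝ} (hτ : Dens K τ)
    {m : ι → ℝ} (hm : ∀ i, 0 < m i) (hs : ∑ i, m i = 1) (y : ι → E d) :
    ∃ ψ, ∀ ψ', Phi K m τ y ψ ≤ Phi K m τ y ψ' := by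
  have cτ := hτ.cont
  have hR := hK.Rpos
  set M := ∑ j, ‖y j‖ * R with hM
  set B : ι → ℝ := fun i => |Phi K m τ y 0 + M| / m i with hB
  have B0 : ∀ i, 0 ≤ B i := fun i => div_nonneg (abs_nonneg _) (hm i).le
  have hc : IsCompact (Icc (0 : ι → ℝ) B) := isCompact_Icc
  obtain ⟨ψ, -, hψ⟩ := hc.exists_isMinOn ⟨0, le_rfl, B0⟩ (continuous_Phi hK hτ m y).continuousOn
  refine ⟨ψ, fun ψ' => ?_⟩
  obtain ⟨j, hj⟩ := Finite.exists_min ψ'
  rw [← Phi_shift hK hτ hs y ψ' (ψ' j)]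
  set ψ'' : ι → ℝ := fun i => ψ' i - ψ' j
  have h0 : ∀ i, 0 ≤ ψ'' i := fun i => sub_nonneg.2 (hj i)
  by_cases hin : ∀ i, ψ'' i ≤ B i
  · exact hψ ⟨h0, hin⟩
  push Not at hin
  obtain ⟨i, hi⟩ := hin
  refine (hψ ⟨le_rfl, B0⟩).trans ?_
  have h1 : -M ≤ ∫ x, lse y ψ'' x * τ x ∂(unif K) := by
    have cl := continuous_lse y ψ''
    calc -M = ∫ x, -M * τ x ∂(unif K) := by rw [integral_const_mul, hτ.total, mul_one]
      _ ≤ _ := by
        refine integral_mono_ae (hK.integrable (by fun_prop)) (hK.integrable (by fun_prop)) ?_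
        filter_upwards [hK.ae_mem] with x hx
        refine mul_le_mul_of_nonneg_right ?_ (le_trans (by norm_num) (hτ.lower x hx))
        refine le_trans ?_ (le_lse y ψ'' j x)
        have h2 : |⟪y j, x⟫| ≤ ‖y j‖ * R :=
          (abs_real_inner_le_norm _ _).trans (by gcongr; exact hK.bdd x hx)
        have h3 : ‖y j‖ * R ≤ M := Finset.single_le_sum (f := fun j => ‖y j‖ * R)
          (fun _ _ => by positivity) (Finset.mem_univ j)
        have h4 : ψ'' j = 0 := sub_self _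
        linarith [neg_abs_le ⟪y j, x⟫]
  have h2 : m i * ψ'' i ≤ ∑ k, m k * ψ'' k := Finset.single_le_sum (f := fun k => m k * ψ'' k)
    (fun k _ => mul_nonneg (hm k).le (h0 k)) (Finset.mem_univ i)
  have h3 : |Phi K m τ y 0 + M| ≤ m i * ψ'' i := by
    have := (div_lt_iff₀ (hm i)).1 hi
    linarith
  have h4 := le_abs_self (Phi K m τ y 0 + M)
  change Phi K m τ y 0 ≤ ∫ x, lse y ψ'' x * τ x ∂(unif K) + ∑ k, m k * ψ'' k
  linarith

lemma exists_foc {K : Set (E d)} {R : ℝ} (hK : Src K R) {τ : E d → ℝ} (hτ : Dens K τ)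
    {m : ι → ℝ} (hm : ∀ i, 0 < m i) (hs : ∑ i, m i = 1) (y : ι → E d) :
    ∃ ψ, ∀ i, ∫ x, ps y ψ i x * τ x ∂(unif K) = m i := by
  classical
  obtain ⟨ψ, hψ⟩ := exists_min hK hτ hm hs y
  refine ⟨ψ, fun i => ?_⟩
  have cτ := hτ.cont
  have cp := continuous_ps y ψ i
  have cl := continuous_lse y ψ
  set a := ∫ x, ps y ψ i x * τ x ∂(unif K) with ha
  have key : ∀ t : ℝ, 0 ≤ (Real.exp t - 1) * a - t * m i := by
    intro t
    set ψt : ι → ℝ := fun j => ψ j - if j = i then t else 0 with hψt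
    have h1 : ∀ x, lse y ψt x ≤ lse y ψ x + (Real.exp t - 1) * ps y ψ i x := by
      intro x
      have hZ := Zs_pos y ψ x
      have h2 : Zs y ψt x = Zs y ψ x * (1 + (Real.exp t - 1) * ps y ψ i x) := by
        have h3 : ∀ j, Real.exp (⟪y j, x⟫ - ψt j) = Real.exp (⟪y j, x⟫ - ψ j) +
            if j = i then (Real.exp t - 1) * Real.exp (⟪y i, x⟫ - ψ i) else 0 := by
          intro j
          by_cases hj : j = i
          · subst hj
            simp only [hψt, if_true]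
            rw [show ⟪y j, x⟫ - (ψ j - t) = t + (⟪y j, x⟫ - ψ j) by ring, Real.exp_add]; ring
          · simp [hψt, hj]
        have h4 : Zs y ψt x = Zs y ψ x + (Real.exp t - 1) * Real.exp (⟪y i, x⟫ - ψ i) := by
          simp only [Zs, h3, Finset.sum_add_distrib, Finset.sum_ite_eq', Finset.mem_univ, if_true]
        rw [h4]; unfold ps; field_simp
      have h5 : 0 < 1 + (Real.exp t - 1) * ps y ψ i x := by
        have := Zs_pos y ψt x
        rw [h2] at this
        exact (mul_pos_iff_of_pos_left hZ).1 this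
      unfold lse
      rw [h2, Real.log_mul hZ.ne' h5.ne']
      linarith [Real.log_le_sub_one_of_pos h5]
    have h6 : ∫ x, lse y ψt x * τ x ∂(unif K) ≤
        ∫ x, lse y ψ x * τ x ∂(unif K) + (Real.exp t - 1) * a := by
      have cl' := continuous_lse y ψt
      rw [ha, ← integral_const_mul,
        ← integral_add (hK.integrable (by fun_prop)) (hK.integrable (by fun_prop))]
      refine integral_mono_ae (hK.integrable (by fun_prop)) (hK.integrable (by fun_prop)) ?_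
      filter_upwards [hK.ae_mem] with x hx
      have := mul_le_mul_of_nonneg_right (h1 x) (le_trans (by norm_num) (hτ.lower x hx))
      linarith
    have h7 : ∑ j, m j * ψt j = ∑ j, m j * ψ j - t * m i := by
      simp only [hψt, mul_sub, Finset.sum_sub_distrib, mul_ite, mul_zero, Finset.sum_ite_eq',
        Finset.mem_univ, if_true]
      ring
    have h8 := hψ ψt
    unfold Phi at h8
    linarith
  have hmin : IsLocalMin (fun t : ℝ => (Real.exp t - 1) * a - t * m i) 0 :=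
    Eventually.of_forall fun t => by simpa using key t
  have hd : HasDerivAt (fun t : ℝ => (Real.exp t - 1) * a - t * m i)
      (Real.exp 0 * a - 1 * m i) 0 :=
    (((Real.hasDerivAt_exp 0).sub_const 1).mul_const a).sub ((hasDerivAt_id 0).mul_const _)
  have := hmin.hasDerivAt_eq_zero hd
  rw [Real.exp_zero] at this
  linarith

omit [Fintype ι] [Nonempty ι] in
lemma telescoping {G G' D D' : ℝ → ℝ} {B : ℝ} (h : ∀ s t, G t + (s - t) * D t ≤ G s)
    (h' : ∀ s t, G' t + (s - t) * D' t ≤ G' s) (hB : ∀ t, D' t - D t ≤ B) :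
    G' 1 - G' 0 - (G 1 - G 0) ≤ B := by
  have key : ∀ δ : ℝ, 0 < δ → ∀ k : ℕ, G' (k * δ) - G' 0 - (G (k * δ) - G 0) ≤
      k * δ * B + δ * (D (k * δ) - D 0) := by
    intro δ hδ k
    induction k with
    | zero => simp
    | succ k ih =>
      have h1 := h (((k + 1 : ℕ) : ℝ) * δ) (k * δ)
      have h2 := h' (k * δ) (((k + 1 : ℕ) : ℝ) * δ)
      have h3 := mul_le_mul_of_nonneg_left (hB (((k + 1 : ℕ) : ℝ) * δ)) hδ.le
      push_cast at h1 h2 h3 ⊢
      nlinarith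
  have key2 : ∀ n : ℕ, G' 1 - G' 0 - (G 1 - G 0) ≤ B + (D 1 - D 0) / ((n : ℝ) + 1) := by
    intro n
    have h1 := key (1 / ((n : ℝ) + 1)) (by positivity) (n + 1)
    have e : (((n + 1 : ℕ) : ℝ)) * (1 / ((n : ℝ) + 1)) = 1 := by push_cast; field_simp
    rw [e] at h1
    calc _ ≤ _ := h1
      _ = _ := by ring
  have hlim : Tendsto (fun n : ℕ => B + (D 1 - D 0) / ((n : ℝ) + 1)) atTop (𝓝 (B + 0)) :=
    tendsto_const_nhds.add (tendsto_const_nhds.div_atTop
      (tendsto_natCast_atTop_atTop.atTop_add tendsto_const_nhds))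
  rw [add_zero] at hlim
  exact ge_of_tendsto' hlim key2

lemma moment_diff {K : Set (E d)} {R : ℝ} (hK : Src K R) {τ : E d → ℝ} (hτ : Dens K τ)
    {m : ι → ℝ} (hm : ∀ i, 0 < m i) {y : ι → E d} {ψ₀ ψ₁ : ι → ℝ}
    (f0 : ∀ i, ∫ x, ps y ψ₀ i x * 1 ∂(unif K) = m i)
    (f1 : ∀ i, ∫ x, ps y ψ₁ i x * τ x ∂(unif K) = m i) (u : ι → E d) :
    ∑ i, ∫ x, ps y ψ₁ i x * τ x * ⟪u i, x⟫ ∂(unif K) - ∑ i, ∫ x, ps y ψ₀ i x * 1 * ⟪u i, x⟫ ∂(unif K)
      ≤ 33 * ∫ x, (τ x - 1) ^ 2 ∂(unif K) + 16387 * R ^ 2 * ∑ i, m i * ‖u i‖ ^ 2 := by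
  have cτ := hτ.cont
  have cq := continuous_ps y ψ₁
  simp only [mul_one] at f0 ⊢
  have hb1 : ∀ i, m i / 2 ≤ ∫ x, ps y ψ₁ i x ∂(unif K) := by
    intro i
    rw [← f1 i, ← integral_div]
    refine integral_mono_ae (hK.integrable (by fun_prop)) (hK.integrable (cq i)) ?_
    filter_upwards [hK.ae_mem] with x hx
    have := mul_le_mul_of_nonneg_left (hτ.upper x hx) (ps_nonneg y ψ₁ i x)
    linarith [ps_nonneg y ψ₁ i x]
  have hb2 : ∀ i, ∫ x, ps y ψ₁ i x ∂(unif K) ≤ 2 * m i := by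
    intro i
    rw [← f1 i, ← integral_const_mul]
    refine integral_mono_ae (hK.integrable (cq i)) (hK.integrable (by fun_prop)) ?_
    filter_upwards [hK.ae_mem] with x hx
    have := mul_le_mul_of_nonneg_left (hτ.lower x hx) (ps_nonneg y ψ₁ i x)
    linarith
  have key := key_sum hK (continuous_ps y ψ₀) cq (continuous_ps y fun j => (ψ₀ j + ψ₁ j) / 2)
    (ps_nonneg y ψ₀) (ps_nonneg y ψ₁) (ps_nonneg y _) (ps_mid y ψ₀ ψ₁) (sum_ps y ψ₀) (sum_ps y ψ₁)
    (sum_ps y _) hm f0 hb1 hb2 u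
  have hN : ∑ i, ∫ x, ps y ψ₁ i x * (τ x - 1) ^ 2 ∂(unif K) = ∫ x, (τ x - 1) ^ 2 ∂(unif K) := by
    rw [← integral_finsetSum _ fun i _ => hK.integrable (by fun_prop)]
    simp only [← Finset.sum_mul, sum_ps, one_mul]
  have h1 : ∀ i, (m i - ∫ x, ps y ψ₁ i x ∂(unif K)) ^ 2 / m i ≤
      2 * ∫ x, ps y ψ₁ i x * (τ x - 1) ^ 2 ∂(unif K) := by
    intro i
    set b := ∫ x, ps y ψ₁ i x ∂(unif K) with hb
    set t := (m i - b) / (2 * m i) with ht
    have h2 : ∫ x, 2 * t * (ps y ψ₁ i x * τ x) - (2 * t + t ^ 2) * ps y ψ₁ i x ∂(unif K) ≤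
        ∫ x, ps y ψ₁ i x * (τ x - 1) ^ 2 ∂(unif K) := by
      refine integral_mono (hK.integrable (by fun_prop)) (hK.integrable (by fun_prop)) fun x => ?_
      have := mul_nonneg (ps_nonneg y ψ₁ i x) (sq_nonneg (τ x - 1 - t))
      simp only
      linarith
    rw [integral_sub (hK.integrable (by fun_prop)) (hK.integrable (by fun_prop)),
      integral_const_mul, integral_const_mul, f1, ← hb] at h2
    have hmi := hm i
    have h3 : t ^ 2 * b ≤ t ^ 2 * (2 * m i) := by gcongr; exact hb2 i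
    have h4 : (m i - b) ^ 2 / m i = 2 * (2 * t * (m i - b) - t ^ 2 * (2 * m i)) := by
      rw [ht]; field_simp; ring
    rw [h4]
    linarith
  have h2 : ∀ i, ∫ x, ps y ψ₁ i x * τ x * ⟪u i, x⟫ ∂(unif K) ≤
      ∫ x, ps y ψ₁ i x * ⟪u i, x⟫ ∂(unif K) + ∫ x, ps y ψ₁ i x * (τ x - 1) ^ 2 ∂(unif K)
        + R ^ 2 * (m i * ‖u i‖ ^ 2) := by
    intro i
    have h3 : ∫ x, (R * ‖u i‖) ^ 2 / 2 * ps y ψ₁ i x ∂(unif K) ≤ R ^ 2 * (m i * ‖u i‖ ^ 2) := by
      rw [integral_const_mul]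
      calc _ ≤ (R * ‖u i‖) ^ 2 / 2 * (2 * m i) := by gcongr; exact hb2 i
        _ = _ := by ring
    refine le_trans ?_ (add_le_add_right h3 _)
    rw [← integral_add (hK.integrable (by fun_prop)) (hK.integrable (by fun_prop)),
      ← integral_add (hK.integrable (by fun_prop)) (hK.integrable (by fun_prop))]
    refine integral_mono_ae (hK.integrable (by fun_prop)) (hK.integrable (by fun_prop)) ?_
    filter_upwards [hK.ae_mem] with x hx
    have h4 : |⟪u i, x⟫| ≤ R * ‖u i‖ := by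
      refine (abs_real_inner_le_norm _ _).trans ?_
      rw [mul_comm]; gcongr; exact hK.bdd x hx
    have h5 : ⟪u i, x⟫ ^ 2 ≤ (R * ‖u i‖) ^ 2 := by
      rw [← sq_abs]; gcongr
    have h6 : (τ x - 1) * ⟪u i, x⟫ ≤ (τ x - 1) ^ 2 + (R * ‖u i‖) ^ 2 / 2 := by
      nlinarith [sq_nonneg (τ x - 1 - ⟪u i, x⟫), sq_nonneg (τ x - 1)]
    have := mul_le_mul_of_nonneg_left h6 (ps_nonneg y ψ₁ i x)
    linarith
  have s1 := Finset.sum_le_sum fun i (_ : i ∈ Finset.univ) => h1 i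
  have s2 := Finset.sum_le_sum fun i (_ : i ∈ Finset.univ) => h2 i
  rw [← Finset.mul_sum, hN] at s1
  rw [Finset.sum_add_distrib, Finset.sum_add_distrib, hN, ← Finset.mul_sum] at s2
  linarith

/-- the mixed difference estimate for the regularised dual value -/
theorem mixed {K : Set (E d)} {R : ℝ} (hK : Src K R) {τ : E d → ℝ} (hτ : Dens K τ)
    {m : ι → ℝ} (hm : ∀ i, 0 < m i) (hs : ∑ i, m i = 1) (y z : ι → E d) {θ : ℝ} (hθ : 0 < θ)
    (ψa ψb : ι → ℝ) : ∃ ψc ψd, Phi K m τ z ψc + Phi K m (fun _ => 1) y ψd ≤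
      Phi K m τ y ψa + Phi K m (fun _ => 1) z ψb +
        (33 * (∫ x, (τ x - 1) ^ 2 ∂(unif K)) / θ
          + 16387 * θ * R ^ 2 * ∑ i, m i * ‖z i - y i‖ ^ 2) := by
  have h1 := dens_one hK
  set yt : ℝ → ι → E d := fun t i => y i + t • (z i - y i) with hyt
  choose a ha using fun t => exists_foc hK hτ hm hs (yt t)
  choose b hb using fun t => exists_foc hK h1 hm hs (yt t)
  have hsub : ∀ {τ : E d → ℝ} {a : ℝ → ι → ℝ}, Dens K τ →
      (∀ t i, ∫ x, ps (yt t) (a t) i x * τ x ∂(unif K) = m i) → ∀ s t,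
      Phi K m τ (yt t) (a t) + (s - t) * ∑ i, ∫ x, ps (yt t) (a t) i x * τ x * ⟪z i - y i, x⟫
        ∂(unif K) ≤ Phi K m τ (yt s) (a s) := by
    intro τ a hτ ha s t
    refine le_trans (le_of_eq ?_) (subgrad hK hτ (ha t) (yt s) (a s))
    congr 1
    rw [Finset.mul_sum]
    refine Finset.sum_congr rfl fun i _ => ?_
    rw [← integral_const_mul]
    refine integral_congr_ae (Eventually.of_forall fun x => ?_)
    have : yt s i - yt t i = (s - t) • (z i - y i) := by simp only [hyt]; module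
    simp only [this, real_inner_smul_left]
    ring
  have key := telescoping (hsub h1 hb) (hsub hτ ha)
    (B := 33 * (∫ x, (τ x - 1) ^ 2 ∂(unif K)) / θ
          + 16387 * θ * R ^ 2 * ∑ i, m i * ‖z i - y i‖ ^ 2) (fun t => by
      have h2 := moment_diff hK hτ hm (hb t) (ha t) (fun i => θ • (z i - y i))
      have e1 : ∀ (F : E d → ℝ) (v : E d), ∫ x, F x * ⟪θ • v, x⟫ ∂(unif K) =
          θ * ∫ x, F x * ⟪v, x⟫ ∂(unif K) := by
        intro F v
        rw [← integral_const_mul]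
        refine integral_congr_ae (Eventually.of_forall fun x => ?_)
        simp only [real_inner_smul_left]; ring
      have e2 : ∑ i, m i * ‖θ • (z i - y i)‖ ^ 2 = θ ^ 2 * ∑ i, m i * ‖z i - y i‖ ^ 2 := by
        rw [Finset.mul_sum]
        refine Finset.sum_congr rfl fun i _ => ?_
        rw [norm_smul, mul_pow, Real.norm_eq_abs, sq_abs]; ring
      simp only [e1, ← Finset.mul_sum] at h2
      rw [e2, ← mul_sub] at h2
      rw [← mul_le_mul_iff_right₀ hθ]
      refine h2.trans (le_of_eq ?_)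
      field_simp)
  have e0 : yt 0 = y := by ext1 i; simp [hyt]
  have e1 : yt 1 = z := by ext1 i; simp [hyt]
  have o1 := subgrad hK hτ (ha 0) (yt 0) ψa
  have o2 := subgrad hK h1 (hb 1) (yt 1) ψb
  simp only [sub_self, inner_zero_left, mul_zero, integral_zero, Finset.sum_const_zero,
    add_zero] at o1 o2
  refine ⟨a 1, b 0, ?_⟩
  simp only [e0, e1] at key o1 o2
  linarith

end Vale.Agent.P074
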