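import Vale.Agent.P074.Var
import Vale.Agent.P074.Soft
import Mathlib.MeasureTheory.Function.SimpleFuncDense
import Mathlib.MeasureTheory.Integral.Bochner.SumMeasure

/-! Lipschitz stability of the potentials in `L²` with respect to `W₂`. -/

open MeasureTheory Set Filter Topology
open scoped ENNReal NNReal RealInnerProductSpace

namespace Vale.Agent.P074

variable {d : ℕ}

lemma discretize {X : Type} [MetricSpace X] [MeasurableSpace X] [BorelSpace X]
    (π : Measure X) [IsProbabilityMeasure π] {C : Set X} (hC : IsCompact C)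
    (hπ : ∀ᵐ p ∂π, p ∈ C) {δ : ℝ} (hδ : 0 < δ) :
    ∃ (s : Finset X) (m : s → ℝ) (r : X → X), Nonempty s ∧ (∀ i, 0 < m i) ∧ ∑ i, m i = 1 ∧
      (∀ i : s, (i : X) ∈ C) ∧ (∀ᵐ p ∂π, dist (r p) p ≤ δ) ∧
      ∀ g : X → ℝ, Measurable g → Integrable (fun p => g (r p)) π ∧
        ∫ p, g (r p) ∂π = ∑ i, m i * g i := by
  classical
  obtain ⟨t, htC, htf, hcov⟩ := finite_cover_balls_of_compact hC hδ
  obtain ⟨p₀, hp₀⟩ := hπ.exists
  have tne : t.Nonempty := by
    have := hcov hp₀
    simp only [mem_iUnion] at this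
    obtain ⟨q, hq, -⟩ := this
    exact ⟨q, hq⟩
  obtain ⟨e, he⟩ := htf.countable.exists_eq_range tne
  have hk : ∀ q : t, ∃ k, e k = q := fun q => by
    have : (q : X) ∈ range e := he ▸ q.2
    exact this
  choose k hk using hk
  have := htf.to_subtype
  obtain ⟨N, hN⟩ := (Set.finite_range k).bddAbove
  set r : X → X := fun p => SimpleFunc.nearestPt e N p with hr
  have mr : Measurable r := (SimpleFunc.nearestPt e N).measurable
  have rt : ∀ p, r p ∈ t := fun p => he ▸ mem_range_self _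
  set π' := π.map r with hπ'
  have : IsProbabilityMeasure π' := Measure.isProbabilityMeasure_map mr.aemeasurable
  have hres : π'.restrict htf.toFinset = π' := by
    refine Measure.restrict_eq_self_of_ae_mem ?_
    refine (ae_map_iff mr.aemeasurable (htf.toFinset.measurableSet)).2 ?_
    exact Eventually.of_forall fun p => by simpa using rt p
  set s := htf.toFinset.filter (fun q => 0 < π'.real {q}) with hs
  have main : ∀ g : X → ℝ, Measurable g → Integrable (fun p => g (r p)) π ∧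
      ∫ p, g (r p) ∂π = ∑ i : s, π'.real {(i : X)} * g i := by
    intro g hg
    have hi : Integrable g π' := by rw [← hres]; exact IntegrableOn.finset
    refine ⟨(integrable_map_measure hg.aestronglyMeasurable mr.aemeasurable).1 hi, ?_⟩
    rw [← integral_map mr.aemeasurable hg.aestronglyMeasurable, ← hπ']
    conv_lhs => rw [← hres]
    rw [setIntegral_finset _ IntegrableOn.finset, Finset.sum_coe_sort s
      (fun q => π'.real {q} * g q), hs, Finset.sum_filter_of_ne]
    · rfl
    · intro q _ hq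
      refine lt_of_le_of_ne measureReal_nonneg fun h0 => hq ?_
      rw [← h0, zero_mul]
  have hsum : ∑ i : s, π'.real {(i : X)} = 1 := by
    simpa using (main (fun _ => 1) measurable_const).2.symm
  refine ⟨s, fun i => π'.real {(i : X)}, r, ?_, fun i => (Finset.mem_filter.1 i.2).2, hsum,
    fun i => htC (by simpa using (Finset.mem_filter.1 i.2).1), ?_, main⟩
  · by_contra hne
    rw [not_nonempty_iff] at hne
    simp at hsum
  · filter_upwards [hπ] with p hp
    have := hcov hp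
    simp only [mem_iUnion] at this
    obtain ⟨q, hq, hpq⟩ := this
    have h1 := SimpleFunc.edist_nearestPt_le e p (hN (mem_range_self ⟨q, hq⟩))
    rw [hk, edist_dist, edist_dist, ENNReal.ofReal_le_ofReal_iff dist_nonneg] at h1
    rw [Metric.mem_ball, dist_comm] at hpq
    exact h1.trans hpq.le

section
variable {ι : Type} [Fintype ι] [Nonempty ι]

lemma lse_lip {y : ι → E d} {L : ℝ} (hy : ∀ i, ‖y i‖ ≤ L) (ψ : ι → ℝ) (x x' : E d) :
    lse y ψ x - lse y ψ x' ≤ L * ‖x - x'‖ := by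
  have h1 := lse_ge y y ψ (fun i => ψ i + ⟪y i, x - x'⟫) x
  have h2 : lse y (fun i => ψ i + ⟪y i, x - x'⟫) x = lse y ψ x' := by
    unfold lse Zs
    congr 1
    refine Finset.sum_congr rfl fun i _ => ?_
    simp only [inner_sub_right]; congr 1; ring
  have h3 : ∑ i, ps y ψ i x * (-(L * ‖x - x'‖)) ≤
      ∑ i, ps y ψ i x * (⟪y i - y i, x⟫ - (ψ i + ⟪y i, x - x'⟫ - ψ i)) := by
    refine Finset.sum_le_sum fun i _ => mul_le_mul_of_nonneg_left ?_ (ps_nonneg _ _ _ _)
    have : ⟪y i, x - x'⟫ ≤ L * ‖x - x'‖ := (real_inner_le_norm _ _).trans (by gcongr; exact hy i)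
    simp only [sub_self, inner_zero_left]
    linarith
  rw [← Finset.sum_mul, sum_ps] at h3
  linarith

lemma Phi_upper {K : Set (E d)} {R : ℝ} (hK : Src K R) {τ : E d → ℝ} (hτ : Dens K τ)
    (m : ι → ℝ) (y : ι → E d) {φ : E d → ℝ} (hφ : Continuous φ) {ε : ℝ} (hε : 0 < ε) :
    ε * Phi K m τ (fun i => ε⁻¹ • y i) (fun i => ε⁻¹ * conj K φ (y i)) ≤
      ∫ x, φ x * τ x ∂(unif K) + ε * Real.log (Fintype.card ι) + ∑ i, m i * conj K φ (y i) := by
  have cτ := hτ.cont
  have cl := continuous_lse (fun i => ε⁻¹ • y i) (fun i => ε⁻¹ * conj K φ (y i))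
  unfold Phi
  rw [mul_add, Finset.mul_sum, ← integral_const_mul]
  refine add_le_add ?_ (le_of_eq (Finset.sum_congr rfl fun i _ => by field_simp))
  calc _ ≤ ∫ x, φ x * τ x + ε * Real.log (Fintype.card ι) * τ x ∂(unif K) := by
        refine integral_mono_ae (hK.integrable (by fun_prop)) (hK.integrable (by fun_prop)) ?_
        filter_upwards [hK.ae_mem] with x hx
        have h1 := lse_le (fun i => ε⁻¹ • y i) (fun i => ε⁻¹ * conj K φ (y i)) x (c := ε⁻¹ * φ x)
          (fun i => by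
            rw [real_inner_smul_left, ← mul_sub]
            have := le_conj hK hφ (y i) hx
            gcongr; linarith)
        have h2 := mul_le_mul_of_nonneg_left h1 hε.le
        rw [mul_add, ← mul_assoc, mul_inv_cancel₀ hε.ne', one_mul] at h2
        have h3 := mul_le_mul_of_nonneg_right h2 (le_trans (by norm_num) (hτ.lower x hx))
        linarith
    _ = _ := by
        rw [integral_add (hK.integrable (by fun_prop)) (hK.integrable (by fun_prop)),
          integral_const_mul, hτ.total, mul_one]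

lemma Phi_lower {K : Set (E d)} {R L : ℝ} (hK : Src K R) (τ : E d → ℝ)
    {m : ι → ℝ} (hm : ∀ i, 0 < m i) {y : ι → E d} (hy : ∀ i, ‖y i‖ ≤ L) (ψ : ι → ℝ) {ε : ℝ}
    (hε : 0 < ε) : ∃ φ : E d → ℝ, (∀ x x', φ x - φ x' ≤ L * ‖x - x'‖) ∧
      ∫ x, φ x * τ x ∂(unif K) + ∑ i, m i * conj K φ (y i) ≤
        ε * Phi K m τ (fun i => ε⁻¹ • y i) ψ := by
  refine ⟨fun x => ε * lse (fun i => ε⁻¹ • y i) ψ x, fun x x' => ?_, ?_⟩
  · have h1 := lse_lip (y := fun i => ε⁻¹ • y i) (L := ε⁻¹ * L) (fun i => by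
      rw [norm_smul, Real.norm_eq_abs, abs_of_pos (inv_pos.2 hε)]
      gcongr; exact hy i) ψ x x'
    have h2 := mul_le_mul_of_nonneg_left h1 hε.le
    rw [← mul_assoc, ← mul_assoc, mul_inv_cancel₀ hε.ne', one_mul] at h2
    linarith
  · unfold Phi
    rw [mul_add, Finset.mul_sum, ← integral_const_mul]
    refine add_le_add (le_of_eq (integral_congr_ae (Eventually.of_forall fun x => by ring)))
      (Finset.sum_le_sum fun i _ => ?_)
    have : conj K (fun x => ε * lse (fun i => ε⁻¹ • y i) ψ x) (y i) ≤ ε * ψ i := by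
      refine conj_le hK fun x _ => ?_
      have h1 := mul_le_mul_of_nonneg_left (le_lse (fun i => ε⁻¹ • y i) ψ i x) hε.le
      rw [real_inner_smul_left, mul_sub, ← mul_assoc, mul_inv_cancel₀ hε.ne', one_mul] at h1
      linarith
    have := mul_le_mul_of_nonneg_left this (hm i).le
    linarith

end

lemma integrable_of_ae_mem {X : Type} [MetricSpace X] [MeasurableSpace X] [BorelSpace X]
    (π : Measure X) [IsFiniteMeasure π] {C : Set X} (hC : IsCompact C)
    (hπ : ∀ᵐ p ∂π, p ∈ C) {f : X → ℝ} (hf : Continuous f) : Integrable f π := by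
  rw [← Measure.restrict_eq_self_of_ae_mem hπ]
  exact hf.continuousOn.integrableOn_compact hC

lemma ae_mem_ball {K : Set (E d)} {L : ℝ} {T : E d → E d} {φ : E d → ℝ} (hp : IsPot K L T φ)
    {X : Type} [MeasurableSpace X] {π : Measure X} {f : X → E d} (hf : Measurable f)
    (h : π.map f = (unif K).map T) : ∀ᵐ p ∂π, f p ∈ Metric.closedBall 0 L := by
  refine ae_of_ae_map (p := fun y => y ∈ Metric.closedBall 0 L) hf.aemeasurable ?_
  rw [h]
  refine (ae_map_iff hp.meas.aemeasurable Metric.isClosed_closedBall.measurableSet).2 ?_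
  simpa using hp.bdd

theorem core_ineq {K : Set (E d)} {R L : ℝ} (hK : Src K R) {T₀ T₁ : E d → E d}
    {φ₀ φ₁ : E d → ℝ} (p0 : IsPot K L T₀ φ₀) (p1 : IsPot K L T₁ φ₁)
    (π : Measure (E d × E d)) [IsProbabilityMeasure π]
    (h0 : π.map Prod.fst = (unif K).map T₀) (h1 : π.map Prod.snd = (unif K).map T₁)
    {η : E d → ℝ} (cη : Continuous η) (η0 : ∫ x, η x ∂(unif K) = 0)
    (ηb : ∀ x ∈ K, |η x| ≤ 1 / 2) {θ : ℝ} (hθ : 0 < θ) :
    ∫ x, φ₁ x * η x ∂(unif K) - ∫ x, φ₀ x * η x ∂(unif K) ≤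
      33 * (∫ x, η x ^ 2 ∂(unif K)) / θ + 16387 * θ * R ^ 2 * (2 * ∫ p, ‖p.1 - p.2‖ ^ 2 ∂π)
        + Real.exp (12 * R * L) * ∫ x, η x ^ 2 ∂(unif K) := by
  have hprob := hK.prob
  have hR := hK.Rpos
  have c0 := continuous_of_lip p0.lip
  have c1 := continuous_of_lip p1.lip
  set C : Set (E d × E d) := Metric.closedBall 0 L ×ˢ Metric.closedBall 0 L
  have hC : IsCompact C := (isCompact_closedBall _ _).prod (isCompact_closedBall _ _)
  have hπ : ∀ᵐ p ∂π, p ∈ C :=
    ((ae_mem_ball p0 measurable_fst h0).and (ae_mem_ball p1 measurable_snd h1)).mono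
      fun p hp => hp
  have hτ : Dens K (fun x => 1 + η x) := by
    refine ⟨by fun_prop, fun x hx => ?_, fun x hx => ?_, ?_⟩
    · linarith [(abs_le.1 (ηb x hx)).1]
    · linarith [(abs_le.1 (ηb x hx)).2]
    · rw [integral_add (integrable_const _) (hK.integrable cη), η0]; simp
  set N := ∫ x, η x ^ 2 ∂(unif K) with hN
  set c := ∫ p, ‖p.1 - p.2‖ ^ 2 ∂π with hc
  have step : ∀ δ : ℝ, 0 < δ → ∫ x, φ₁ x * η x ∂(unif K) - ∫ x, φ₀ x * η x ∂(unif K) ≤
      33 * N / θ + 16387 * θ * R ^ 2 * (2 * c + 8 * δ ^ 2) + Real.exp (12 * R * L) * N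
        + 4 * (R * δ) := by
    intro δ hδ
    obtain ⟨s, m, r, hne, hm, hs, hsC, hr, hint⟩ := discretize π hC hπ hδ
    have hy : ∀ i : s, ‖(i : E d × E d).1‖ ≤ L := fun i => mem_closedBall_zero_iff.1 (hsC i).1
    have hz : ∀ i : s, ‖(i : E d × E d).2‖ ≤ L := fun i => mem_closedBall_zero_iff.1 (hsC i).2
    have cmp : ∀ {f : E d × E d → E d} {T : E d → E d}, Continuous f → Measurable T →
        (∀ p q, ‖f p - f q‖ ≤ dist p q) → π.map f = (unif K).map T →
        ∀ {φ : E d → ℝ}, Continuous φ →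
        |∑ i : s, m i * conj K φ (f i) - ∫ x, conj K φ (T x) ∂(unif K)| ≤ R * δ := by
      intro f T cf mT hf hmap φ cφ
      have cc := continuous_conj hK cφ
      obtain ⟨j1, j2⟩ := hint (fun p => conj K φ (f p)) (by fun_prop)
      have j3 := integrable_of_ae_mem π hC hπ (f := fun p => conj K φ (f p)) (by fun_prop)
      rw [← j2, ← integral_map mT.aemeasurable cc.aestronglyMeasurable, ← hmap,
        integral_map cf.measurable.aemeasurable cc.aestronglyMeasurable, ← integral_sub j1 j3]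
      have := norm_integral_le_of_norm_le_const (μ := π)
        (f := fun p => conj K φ (f (r p)) - conj K φ (f p)) (C := R * δ) (by
          filter_upwards [hr] with p hp
          have a1 := conj_lip hK cφ (f (r p)) (f p)
          have a2 := conj_lip hK cφ (f p) (f (r p))
          rw [norm_sub_rev] at a2
          have a3 : R * ‖f (r p) - f p‖ ≤ R * δ := by gcongr; exact (hf _ _).trans hp
          rw [Real.norm_eq_abs, abs_le]
          constructor <;> linarith)
      simpa using this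
    have dfst : ∀ p q : E d × E d, ‖p.1 - q.1‖ ≤ dist p q := fun p q => by
      rw [← dist_eq_norm, Prod.dist_eq]; exact le_max_left _ _
    have dsnd : ∀ p q : E d × E d, ‖p.2 - q.2‖ ≤ dist p q := fun p q => by
      rw [← dist_eq_norm, Prod.dist_eq]; exact le_max_right _ _
    have hW : ∑ i : s, m i * ‖(i : E d × E d).2 - (i : E d × E d).1‖ ^ 2 ≤ 2 * c + 8 * δ ^ 2 := by
      obtain ⟨j1, j2⟩ := hint (fun p => ‖p.2 - p.1‖ ^ 2) (by fun_prop)
      have j3 := integrable_of_ae_mem π hC hπ (f := fun p => ‖p.1 - p.2‖ ^ 2) (by fun_prop)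
      rw [← j2]
      calc _ ≤ ∫ p, 2 * ‖p.1 - p.2‖ ^ 2 + 8 * δ ^ 2 ∂π := by
            refine integral_mono_ae j1 ((j3.const_mul 2).add (integrable_const _)) ?_
            filter_upwards [hr] with p hp
            have a1 : ‖(r p).2 - (r p).1‖ ≤ ‖p.1 - p.2‖ + 2 * δ := by
              calc _ = ‖((r p).2 - p.2) - ((r p).1 - p.1) - (p.1 - p.2)‖ := by congr 1; abel
                _ ≤ ‖((r p).2 - p.2) - ((r p).1 - p.1)‖ + ‖p.1 - p.2‖ := norm_sub_le _ _
                _ ≤ _ := by
                  linarith [norm_sub_le ((r p).2 - p.2) ((r p).1 - p.1), dfst (r p) p, dsnd (r p) p]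
            have a2 : ‖(r p).2 - (r p).1‖ ^ 2 ≤ (‖p.1 - p.2‖ + 2 * δ) ^ 2 := by gcongr
            nlinarith [sq_nonneg (‖p.1 - p.2‖ - 2 * δ)]
        _ = _ := by
            rw [integral_add (j3.const_mul 2) (integrable_const _), integral_const_mul]; simp [hc]
    refine le_of_forall_pos_le_add fun γ hγ => ?_
    have hlog : 0 ≤ Real.log (Fintype.card s) :=
      Real.log_nonneg (by exact_mod_cast Fintype.card_pos)
    set ε := γ / (2 * Real.log (Fintype.card s) + 1) with hε
    have ε0 : 0 < ε := by positivity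
    have hεγ : 2 * (ε * Real.log (Fintype.card s)) ≤ γ := by
      have : ε * (2 * Real.log (Fintype.card s) + 1) = γ := by rw [hε]; field_simp
      nlinarith
    obtain ⟨ψc, ψd, hmix⟩ := mixed hK hτ hm hs (fun i => ε⁻¹ • (i : E d × E d).1)
      (fun i => ε⁻¹ • (i : E d × E d).2) (mul_pos ε0 hθ)
      (fun i => ε⁻¹ * conj K φ₀ (i : E d × E d).1) (fun i => ε⁻¹ * conj K φ₁ (i : E d × E d).2)
    have u0 := Phi_upper hK hτ m (fun i : s => (i : E d × E d).1) c0 ε0
    have u1 := Phi_upper hK (dens_one hK) m (fun i : s => (i : E d × E d).2) c1 ε0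
    obtain ⟨φc, lc, hc'⟩ := Phi_lower hK (fun x => 1 + η x) hm hz ψc ε0
    obtain ⟨φd, ld, hd'⟩ := Phi_lower hK (fun _ => 1) hm hy ψd ε0
    have b0 := (abs_le.1 (cmp continuous_fst p0.meas dfst h0 c0)).2
    have b1 := (abs_le.1 (cmp continuous_snd p1.meas dsnd h1 c1)).2
    have bc := (abs_le.1 (cmp continuous_snd p1.meas dsnd h1 (continuous_of_lip lc))).1
    have bd := (abs_le.1 (cmp continuous_fst p0.meas dfst h0 (continuous_of_lip ld))).1
    have d0 := dual_upper hK p0
    have d1 := dual_upper hK p1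
    have dc := dual_lower hK p1 lc cη η0
    have dd := dual_lower hK p0 ld (η := fun _ => 0) continuous_const (by simp)
    simp only [mul_zero, integral_zero, add_zero, mul_one, ne_eq, OfNat.ofNat_ne_zero,
      not_false_eq_true, zero_pow, sub_zero] at dd hd' u1
    have e0 : ∫ x, φ₀ x * (1 + η x) ∂(unif K) =
        ∫ x, φ₀ x ∂(unif K) + ∫ x, φ₀ x * η x ∂(unif K) := by
      rw [← integral_add (hK.integrable c0) (hK.integrable (by fun_prop))]
      exact integral_congr_ae (Eventually.of_forall fun x => by ring)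
    have e1 : ∑ i : s, m i * ‖ε⁻¹ • (i : E d × E d).2 - ε⁻¹ • (i : E d × E d).1‖ ^ 2 =
        ε⁻¹ ^ 2 * ∑ i : s, m i * ‖(i : E d × E d).2 - (i : E d × E d).1‖ ^ 2 := by
      rw [Finset.mul_sum]
      refine Finset.sum_congr rfl fun i _ => ?_
      rw [← smul_sub, norm_smul, mul_pow, Real.norm_eq_abs, sq_abs]; ring
    simp only [add_sub_cancel_left] at hmix
    rw [e1, ← hN] at hmix
    have hmix2 := mul_le_mul_of_nonneg_left hmix ε0.le
    have e2 : ε * (33 * N / (ε * θ) + 16387 * (ε * θ) * R ^ 2 * (ε⁻¹ ^ 2 *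
        ∑ i : s, m i * ‖(i : E d × E d).2 - (i : E d × E d).1‖ ^ 2)) = 33 * N / θ +
        16387 * θ * R ^ 2 * ∑ i : s, m i * ‖(i : E d × E d).2 - (i : E d × E d).1‖ ^ 2 := by
      field_simp
    rw [mul_add, mul_add, mul_add, e2] at hmix2
    have hW2 := mul_le_mul_of_nonneg_left hW (show 0 ≤ 16387 * θ * R ^ 2 by positivity)
    rw [← hN] at dc
    linarith
  have hlim : Tendsto (fun δ : ℝ => 33 * N / θ + 16387 * θ * R ^ 2 * (2 * c + 8 * δ ^ 2)
      + Real.exp (12 * R * L) * N + 4 * (R * δ)) (𝓝[>] 0) (𝓝 (33 * N / θ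
      + 16387 * θ * R ^ 2 * (2 * c + 8 * 0 ^ 2) + Real.exp (12 * R * L) * N + 4 * (R * 0))) :=
    (Continuous.tendsto (by fun_prop) 0).mono_left nhdsWithin_le_nhds
  have := ge_of_tendsto hlim (eventually_nhdsWithin_of_forall fun δ hδ => step δ hδ)
  simpa using this

/-- Lipschitz stability of potentials -/
theorem pot_stab {K : Set (E d)} {R L : ℝ} (hK : Src K R) {T₀ T₁ : E d → E d}
    {φ₀ φ₁ : E d → ℝ} (p0 : IsPot K L T₀ φ₀) (p1 : IsPot K L T₁ φ₁)
    (π : Measure (E d × E d)) [IsProbabilityMeasure π]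
    (h0 : π.map Prod.fst = (unif K).map T₀) (h1 : π.map Prod.snd = (unif K).map T₁) :
    ∃ κ : ℝ, ∫ x, (φ₁ x - φ₀ x - κ) ^ 2 ∂(unif K) ≤
      10000000 * R ^ 2 * ∫ p, ‖p.1 - p.2‖ ^ 2 ∂π := by
  have hprob := hK.prob
  have hR := hK.Rpos
  have hL := p0.Lpos
  have c0 := continuous_of_lip p0.lip
  have c1 := continuous_of_lip p1.lip
  set κ := ∫ x, φ₁ x - φ₀ x ∂(unif K) with hκ
  refine ⟨κ, ?_⟩
  set h : E d → ℝ := fun x => φ₁ x - φ₀ x - κ with hh
  have ch : Continuous h := by simp only [hh]; fun_prop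
  have h0' : ∫ x, h x ∂(unif K) = 0 := by
    simp only [hh]
    rw [integral_sub (hK.integrable (by fun_prop)) (integrable_const _)]; simp [hκ]
  obtain ⟨B, hB⟩ := hK.cpt.exists_bound_of_continuousOn ch.continuousOn
  set Ex := Real.exp (12 * R * L)
  have Ex0 : 0 < Ex := Real.exp_pos _
  set s := 1 / (2 * |B| + 4 * Ex) with hs
  have s0 : 0 < s := by positivity
  have hs1 : s * (2 * |B| + 4 * Ex) = 1 := by rw [hs]; field_simp
  have key := core_ineq hK p0 p1 π h0 h1 (η := fun x => s * h x) (by fun_prop)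
    (by rw [integral_const_mul, h0', mul_zero]) (fun x hx => by
      rw [abs_mul, abs_of_pos s0]
      have a1 : s * |h x| ≤ s * |B| :=
        mul_le_mul_of_nonneg_left ((hB x hx).trans (le_abs_self B)) s0.le
      nlinarith [mul_pos s0 Ex0]) (θ := 66 * s) (by positivity)
  set N := ∫ x, h x ^ 2 ∂(unif K) with hN
  set c := ∫ p, ‖p.1 - p.2‖ ^ 2 ∂π with hc
  have N0 : 0 ≤ N := integral_nonneg fun x => sq_nonneg _
  have c0' : 0 ≤ c := integral_nonneg fun x => sq_nonneg _
  have e1 : ∫ x, (s * h x) ^ 2 ∂(unif K) = s ^ 2 * N := by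
    rw [hN, ← integral_const_mul]
    exact integral_congr_ae (Eventually.of_forall fun x => by ring)
  have e2 : ∫ x, φ₁ x * (s * h x) ∂(unif K) - ∫ x, φ₀ x * (s * h x) ∂(unif K) = s * N := by
    rw [← integral_sub (hK.integrable (by fun_prop)) (hK.integrable (by fun_prop))]
    have : ∫ x, φ₁ x * (s * h x) - φ₀ x * (s * h x) ∂(unif K) =
        ∫ x, s * h x ^ 2 + s * κ * h x ∂(unif K) :=
      integral_congr_ae (Eventually.of_forall fun x => by simp only [hh]; ring)
    rw [this, integral_add (hK.integrable (by fun_prop)) (hK.integrable (by fun_prop)),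
      integral_const_mul, integral_const_mul, h0']
    simp [hN]
  rw [e1, e2] at key
  have e3 : 33 * (s ^ 2 * N) / (66 * s) = s * N / 2 := by field_simp; ring
  rw [e3] at key
  have a1 : Ex * (s ^ 2 * N) ≤ s * N / 4 := by
    have a2 : s * Ex ≤ 1 / 4 := by nlinarith [mul_nonneg s0.le (abs_nonneg B)]
    calc Ex * (s ^ 2 * N) = (s * Ex) * (s * N) := by ring
      _ ≤ 1 / 4 * (s * N) := by gcongr
      _ = _ := by ring
  have a3 : s * N ≤ s * (10000000 * R ^ 2 * c) := by
    nlinarith [mul_nonneg s0.le (mul_nonneg (sq_nonneg R) c0')]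
  exact le_of_mul_le_mul_left a3 s0

end Vale.Agent.P074
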