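import Vale.Agent.P074.Defs
import Mathlib.MeasureTheory.Measure.Lebesgue.Basic
import Mathlib.Analysis.SpecialFunctions.Pow.Continuity
import Mathlib.MeasureTheory.Constructions.BorelSpace.Metric

/-! Exponents above `1/3` are not admissible. -/

open MeasureTheory Set Filter Topology
open scoped ENNReal NNReal RealInnerProductSpace

namespace Vale.Agent.P074

open Classical in
/-- nearest point map onto `{0, y}` -/
noncomputable def near {d : ℕ} (y x : E d) : E d := if ‖x - y‖ < ‖x‖ then y else 0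

lemma measurableSet_cell {d : ℕ} (y : E d) : MeasurableSet {x : E d | ‖x - y‖ < ‖x‖} :=
  measurableSet_lt (by fun_prop) (by fun_prop)

lemma measurable_near {d : ℕ} (y : E d) : Measurable (near y) :=
  Measurable.ite (measurableSet_cell y) measurable_const measurable_const

lemma near_mem {d : ℕ} (y x : E d) : near y x ∈ ({0, y} : Set (E d)) := by
  unfold near; split_ifs <;> simp

lemma near_le {d : ℕ} (y x z : E d) (hz : z ∈ ({0, y} : Set (E d))) :
    ‖x - near y x‖ ≤ ‖x - z‖ := by
  unfold near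
  rcases hz with rfl | rfl
  · split_ifs with h
    · simpa using h.le
    · rfl
  · split_ifs with h
    · rfl
    · simpa using not_lt.1 h

lemma isOptimalMap_near {d : ℕ} (ρ : Measure (E d)) (y : E d) :
    IsOptimalMap ρ (ρ.map (near y)) (near y) := by
  refine ⟨measurable_near y, rfl, fun S hS hmap => ?_⟩
  have hms : MeasurableSet (({0, y} : Set (E d))ᶜ) :=
    ((measurableSet_singleton _).insert _).compl
  have h0 : ρ (S ⁻¹' (({0, y} : Set (E d))ᶜ)) = 0 := by
    rw [← Measure.map_apply hS hms, hmap, Measure.map_apply (measurable_near y) hms]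
    have : near y ⁻¹' (({0, y} : Set (E d))ᶜ) = ∅ := by
      ext x; simp only [mem_preimage, mem_compl_iff, near_mem, not_true, mem_empty_iff_false]
    rw [this, measure_empty]
  refine lintegral_mono_ae ?_
  have : ∀ᵐ x ∂ρ, S x ∈ ({0, y} : Set (E d)) := by
    rw [ae_iff]; exact h0
  filter_upwards [this] with x hx
  have := near_le y x (S x) hx
  gcongr
  rw [← ofReal_norm, ← ofReal_norm]
  exact ENNReal.ofReal_le_ofReal this

lemma near_isometry {d : ℕ} (σ : E d ≃ₗᵢ[ℝ] E d) (y x : E d) :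
    near (σ y) (σ x) = σ (near y x) := by
  unfold near
  rw [← map_sub, σ.norm_map, σ.norm_map]
  split_ifs <;> simp

lemma W2_near_le {d : ℕ} (ρ : Measure (E d)) (σ : E d ≃ₗᵢ[ℝ] E d) (hρ : ρ.map σ = ρ) (y : E d) :
    W2 (ρ.map (near y)) (ρ.map (near (σ y))) ≤
      (‖y - σ y‖ₑ ^ 2 * ρ {x | ‖x - y‖ < ‖x‖}) ^ (1 / 2 : ℝ) := by
  have hσ : Measurable σ := σ.continuous.measurable
  have hm : Measurable (fun x => (near y x, near (σ y) (σ x))) :=
    (measurable_near y).prodMk ((measurable_near _).comp hσ)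
  unfold W2
  refine iInf_le_of_le (ρ.map fun x => (near y x, near (σ y) (σ x))) ?_
  refine iInf_le_of_le ?_ (iInf_le_of_le ?_ ?_)
  · rw [Measure.map_map measurable_fst hm]; rfl
  · rw [Measure.map_map measurable_snd hm]
    conv_rhs => rw [← hρ, Measure.map_map (measurable_near _) hσ]
    rfl
  · gcongr
    rw [lintegral_map (by fun_prop) hm, ← lintegral_indicator_const (measurableSet_cell y)]
    refine lintegral_mono fun x => ?_
    simp only [near_isometry]
    unfold near
    by_cases h : ‖x - y‖ < ‖x‖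
    · simp [h]
    · simp [h]

/-- the cube -/
def cube (d : ℕ) : Set (E d) := {x | ∀ i, x i ∈ Icc (-1 : ℝ) 1}

lemma volume_box {d : ℕ} (a b : Fin d → ℝ) :
    volume {x : E d | ∀ i, x i ∈ Icc (a i) (b i)} = ∏ i, ENNReal.ofReal (b i - a i) := by
  rw [← Real.volume_Icc_pi, ← (PiLp.volume_preserving_ofLp (Fin d)).measure_preimage
    measurableSet_Icc.nullMeasurableSet]
  congr 1
  ext x
  simp [Pi.le_def, forall_and]

lemma isCompact_cube (d : ℕ) : IsCompact (cube d) := by
  have : cube d = (EuclideanSpace.equiv (Fin d) ℝ).toHomeomorph ⁻¹'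
      (Set.pi univ fun _ => Icc (-1 : ℝ) 1) := by
    ext x; simp [cube, Pi.le_def, forall_and]
  rw [this, Homeomorph.isCompact_preimage]
  exact isCompact_univ_pi fun _ => isCompact_Icc

lemma convex_cube (d : ℕ) : Convex ℝ (cube d) := by
  intro x hx y hy a b ha hb hab i
  have := convex_Icc (-1 : ℝ) 1 (hx i) (hy i) ha hb hab
  simpa using this

lemma interior_cube (d : ℕ) : (interior (cube d)).Nonempty := by
  refine ⟨0, mem_interior.2 ⟨Metric.ball 0 1, fun x hx i => ?_, Metric.isOpen_ball, by simp⟩⟩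
  have h1 : ‖x i‖ ≤ ‖x‖ := PiLp.norm_apply_le x i
  have h2 : ‖x‖ < 1 := by simpa using hx
  exact abs_le.1 (h1.trans h2.le)

/-- reflection of the coordinate `0` -/
noncomputable def refl0 (n : ℕ) : E (n + 2) ≃ₗᵢ[ℝ] E (n + 2) :=
  LinearIsometryEquiv.piLpCongrRight 2
    (fun i => if i = 0 then LinearIsometryEquiv.neg ℝ else LinearIsometryEquiv.refl ℝ ℝ)

lemma refl0_apply (n : ℕ) (x : E (n + 2)) (i : Fin (n + 2)) :
    refl0 n x i = if i = 0 then - x i else x i := by
  simp only [refl0, LinearIsometryEquiv.piLpCongrRight_apply]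
  split_ifs <;> simp

lemma unif_map_refl0 (n : ℕ) : (unif (cube (n + 2))).map (refl0 n) = unif (cube (n + 2)) := by
  have hpre : refl0 n ⁻¹' cube (n + 2) = cube (n + 2) := by
    ext x
    simp only [cube, mem_preimage, mem_ofPred_eq, refl0_apply]
    refine forall_congr' fun i => ?_
    split_ifs
    · simp only [mem_Icc]; constructor <;> rintro ⟨h1, h2⟩ <;> constructor <;> linarith
    · rfl
  have := ((refl0 n).measurePreserving).restrict_preimage
    (isCompact_cube (n + 2)).measurableSet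
  rw [hpre] at this
  unfold unif
  rw [Measure.map_smul, this.map_eq]

/-- the site -/
noncomputable def site (n : ℕ) (θ : ℝ) : E (n + 2) :=
  EuclideanSpace.single 0 (2 * θ) + EuclideanSpace.single 1 (-2)

lemma refl0_site (n : ℕ) (θ : ℝ) : refl0 n (site n θ) = site n (-θ) := by
  ext i
  rw [refl0_apply]
  by_cases h : i = 0
  · subst h; simp [site]
  · simp [site, h]

lemma inner_site (n : ℕ) (θ : ℝ) (x : E (n + 2)) : ⟪x, site n θ⟫ = 2 * θ * x 0 - 2 * x 1 := by
  simp [site, inner_add_right, EuclideanSpace.inner_single_right]; ring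

lemma norm_site_sq (n : ℕ) (θ : ℝ) : ‖site n θ‖ ^ 2 = 4 * θ ^ 2 + 4 := by
  rw [← real_inner_self_eq_norm_sq, inner_site]
  simp [site]; ring

lemma mem_cell_iff (n : ℕ) (θ : ℝ) (x : E (n + 2)) :
    ‖x - site n θ‖ < ‖x‖ ↔ 1 + θ ^ 2 < θ * x 0 - x 1 := by
  rw [← sq_lt_sq₀ (norm_nonneg _) (norm_nonneg _), norm_sub_sq_real, inner_site, norm_site_sq]
  constructor <;> intro h <;> linarith

lemma norm_site_sub (n : ℕ) (θ : ℝ) (hθ : 0 ≤ θ) : ‖site n θ - site n (-θ)‖ = 4 * θ := by
  have : site n θ - site n (-θ) = EuclideanSpace.single 0 (4 * θ) := by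
    ext i
    by_cases h : i = 0
    · subst h; simp [site]; ring
    · simp [site, h]
  rw [this]
  simp [abs_of_nonneg hθ]

lemma volume_cube_ne_zero (d : ℕ) : volume (cube d) ≠ 0 :=
  (Measure.measure_pos_of_nonempty_interior _ (interior_cube d)).ne'

lemma isProb_unif {d : ℕ} {K : Set (E d)} (hK : IsCompact K) (hi : (interior K).Nonempty) :
    IsProbabilityMeasure (unif K) := by
  constructor
  simp only [unif, Measure.smul_apply, Measure.restrict_apply MeasurableSet.univ, univ_inter,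
    smul_eq_mul]
  exact ENNReal.inv_mul_cancel (Measure.measure_pos_of_nonempty_interior _ hi).ne'
    hK.measure_lt_top.ne

lemma cell_lower (n : ℕ) (θ : ℝ) (h0 : 0 < θ) (h1 : θ ≤ 1 / 4) :
    (volume (cube (n + 2)))⁻¹ * ENNReal.ofReal (θ / 16) ≤
      unif (cube (n + 2)) {x | ‖x - site n θ‖ < ‖x‖} := by
  simp only [unif, Measure.smul_apply, smul_eq_mul]
  gcongr
  rw [Measure.restrict_apply (measurableSet_cell _)]
  set a : Fin (n + 2) → ℝ := fun i => if i = 0 then 3 / 4 else if i = 1 then -1 else 0 with ha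
  set b : Fin (n + 2) → ℝ := fun i => if i = 1 then -1 + θ / 4 else 1 with hb
  have hv : volume {x : E (n + 2) | ∀ i, x i ∈ Icc (a i) (b i)} = ENNReal.ofReal (θ / 16) := by
    rw [volume_box, Fin.prod_univ_succ, Fin.prod_univ_succ]
    have h2 : ∀ i : Fin n, ENNReal.ofReal (b i.succ.succ - a i.succ.succ) = 1 := by
      intro i
      have e1 : i.succ.succ ≠ 0 := Fin.succ_ne_zero _
      have e2 : i.succ.succ ≠ 1 := by
        intro h
        exact Fin.succ_ne_zero i (Fin.succ_injective _ (h.trans (Fin.succ_zero_eq_one).symm))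
      simp [ha, hb, e1, e2]
    simp only [h2, Finset.prod_const_one, mul_one]
    rw [← ENNReal.ofReal_mul (by simp [ha, hb]; norm_num)]
    congr 1
    simp [ha, hb]; ring
  rw [← hv]
  refine measure_mono fun x hx => ⟨?_, fun i => ?_⟩
  · have e0 := hx 0
    have e1 := hx 1
    simp [ha, hb] at e0 e1
    simp only [mem_ofPred_eq, mem_cell_iff]
    nlinarith [e0.1, e1.2]
  · have := hx i
    simp only [ha, hb, mem_Icc] at this ⊢
    constructor
    · refine le_trans ?_ this.1; split_ifs <;> norm_num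
    · refine this.2.trans ?_; split_ifs <;> linarith

lemma eLpNorm_two_eq {d : ℕ} (f : E d → E d) (ρ : Measure (E d)) :
    eLpNorm f 2 ρ = (∫⁻ x, ‖f x‖ₑ ^ 2 ∂ρ) ^ (1 / 2 : ℝ) := by
  rw [eLpNorm_eq_lintegral_rpow_enorm_toReal (by norm_num) (by norm_num)]
  simp

lemma ae_mem_unif {d : ℕ} {K : Set (E d)} (hK : MeasurableSet K) : ∀ᵐ x ∂(unif K), x ∈ K :=
  Measure.ae_smul_measure (ae_restrict_mem hK) _

lemma diff_lower (n : ℕ) (θ : ℝ) :
    (unif (cube (n + 2)) {x | ‖x - site n θ‖ < ‖x‖}) ^ (1 / 2 : ℝ) ≤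
      eLpNorm (fun x => near (site n θ) x - near (site n (-θ)) x) 2 (unif (cube (n + 2))) := by
  rw [eLpNorm_two_eq]
  gcongr
  rw [← lintegral_indicator_one (measurableSet_cell _)]
  refine lintegral_mono_ae ?_
  filter_upwards [ae_mem_unif (isCompact_cube (n + 2)).measurableSet] with x hx
  by_cases h : ‖x - site n θ‖ < ‖x‖
  · have h' : ¬ ‖x - site n (-θ)‖ < ‖x‖ := by
      rw [mem_cell_iff] at h ⊢
      have := (hx 1).1
      intro h2
      nlinarith [sq_nonneg θ]
    rw [indicator_of_mem (by exact h)]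
    simp only [near, h, h', if_true, if_false, sub_zero, Pi.one_apply]
    rw [← ofReal_norm, ← ENNReal.ofReal_pow (norm_nonneg _), norm_site_sq,
      ← ENNReal.ofReal_one]
    exact ENNReal.ofReal_le_ofReal (by nlinarith [sq_nonneg θ])
  · rw [indicator_of_notMem (by exact h)]; exact zero_le

theorem not_admissible (d : ℕ) (hd : 2 ≤ d) (α : ℝ) (hα : 1 / 3 < α) (hα1 : α ≤ 1) :
    ¬ Admissible d α := by
  obtain ⟨n, rfl⟩ : ∃ n, d = n + 2 := ⟨d - 2, by omega⟩
  intro H
  obtain ⟨C, hC⟩ := H (cube (n + 2)) (isCompact_cube _) (convex_cube _) (interior_cube _)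
    (Metric.closedBall 0 3) (isCompact_closedBall _ _) ⟨0, by simp⟩
  set ρ := unif (cube (n + 2)) with hρ
  have : IsProbabilityMeasure ρ := isProb_unif (isCompact_cube _) (interior_cube _)
  have hsupp : ∀ θ : ℝ, θ ^ 2 ≤ 1 → (ρ.map (near (site n θ))) (Metric.closedBall 0 3)ᶜ = 0 := by
    intro θ hθ
    rw [Measure.map_apply (measurable_near _) Metric.isClosed_closedBall.measurableSet.compl]
    have : near (site n θ) ⁻¹' (Metric.closedBall 0 3)ᶜ = ∅ := by
      ext x
      simp only [mem_preimage, mem_compl_iff, mem_empty_iff_false, iff_false, not_not,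
        mem_closedBall_zero_iff]
      rcases near_mem (site n θ) x with h | h
      · rw [h]; simp
      · rw [h]
        have := norm_site_sq n θ
        nlinarith [norm_nonneg (site n θ)]
    rw [this, measure_empty]
  set V : ℝ := (volume (cube (n + 2))).toReal with hV
  have hVpos : 0 < V :=
    ENNReal.toReal_pos (volume_cube_ne_zero _) (isCompact_cube _).measure_lt_top.ne
  have key : ∀ θ : ℝ, 0 < θ → θ ≤ 1 / 4 →
      (1 / (16 * V)) ^ (1 - α) ≤ (C : ℝ) ^ 2 * 16 ^ α * θ ^ (3 * α - 1) := by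
    intro θ h0 h1
    have hP : ∀ y, IsProbabilityMeasure (ρ.map (near y)) := fun y =>
      Measure.isProbabilityMeasure_map (measurable_near y).aemeasurable
    have h := hC _ _ (hP _) (hP _) (hsupp θ (by nlinarith)) (hsupp (-θ) (by nlinarith)) _ _
      (isOptimalMap_near ρ (site n θ)) (isOptimalMap_near ρ (site n (-θ)))
    have hW := W2_near_le ρ (refl0 n) (unif_map_refl0 n) (site n θ)
    rw [refl0_site] at hW
    have hl := diff_lower n θ
    have hc := cell_lower n θ h0 h1
    rw [← hρ] at hl hc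
    set m := ρ {x | ‖x - site n θ‖ < ‖x‖} with hm
    have hmtop : m ≠ ∞ := measure_ne_top _ _
    have hα0 : 0 ≤ α := by linarith
    have h2 : m ^ (1 / 2 : ℝ) ≤
        C * ((‖site n θ - site n (-θ)‖ₑ ^ 2 * m) ^ (1 / 2 : ℝ)) ^ α :=
      hl.trans (h.trans (by gcongr))
    lift m to ℝ≥0 using hmtop with M hM
    have hc' : θ / (16 * V) ≤ (M : ℝ) := by
      have := ENNReal.toReal_mono ENNReal.coe_ne_top hc
      rw [ENNReal.toReal_mul, ENNReal.toReal_inv, ENNReal.toReal_ofReal (by positivity),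
        ENNReal.coe_toReal, ← hV] at this
      calc θ / (16 * V) = V⁻¹ * (θ / 16) := by field_simp
        _ ≤ M := this
    have hMpos : (0 : ℝ) < M := lt_of_lt_of_le (by positivity) hc'
    have h3 : (M : ℝ) ^ (1 / 2 : ℝ) ≤ C * (((4 * θ) ^ 2 * M) ^ (1 / 2 : ℝ)) ^ α := by
      have := ENNReal.toReal_mono (by finiteness) h2
      simpa [ENNReal.toReal_mul, ← ENNReal.toReal_rpow, norm_site_sub n θ h0.le] using this
    have h4 : (M : ℝ) ≤ (C : ℝ) ^ 2 * (16 ^ α * θ ^ (2 * α) * (M : ℝ) ^ α) := by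
      have h5 := pow_le_pow_left₀ (by positivity) h3 2
      rw [← Real.rpow_natCast, ← Real.rpow_mul hMpos.le, mul_pow, ← Real.rpow_mul (by positivity),
        ← Real.rpow_natCast (_ ^ _), ← Real.rpow_mul (by positivity)] at h5
      norm_num at h5
      have e : (1 / 2 * α * 2) = α := by ring
      rw [e, Real.mul_rpow (by positivity) hMpos.le, mul_pow,
        Real.mul_rpow (by positivity) (by positivity), ← Real.rpow_natCast θ,
        ← Real.rpow_mul h0.le] at h5
      norm_num at h5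
      exact h5
    have h6 : (M : ℝ) ^ (1 - α) ≤ (C : ℝ) ^ 2 * 16 ^ α * θ ^ (2 * α) := by
      rw [Real.rpow_sub hMpos, Real.rpow_one, div_le_iff₀ (by positivity)]
      linarith
    have h7 : (θ / (16 * V)) ^ (1 - α) ≤ (M : ℝ) ^ (1 - α) :=
      Real.rpow_le_rpow (by positivity) hc' (by linarith)
    have h8 : (θ / (16 * V)) ^ (1 - α) = θ ^ (1 - α) * (1 / (16 * V)) ^ (1 - α) := by
      rw [← Real.mul_rpow h0.le (by positivity)]; congr 1; ring
    have h9 : θ ^ (2 * α) = θ ^ (1 - α) * θ ^ (3 * α - 1) := by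
      rw [← Real.rpow_add h0]; congr 1; ring
    have h10 : 0 < θ ^ (1 - α) := by positivity
    have h11 := h7.trans h6
    rw [h8, h9] at h11
    nlinarith
  have hlim : Tendsto (fun θ : ℝ => (C : ℝ) ^ 2 * 16 ^ α * θ ^ (3 * α - 1)) (𝓝[>] 0) (𝓝 0) := by
    have h1 : ContinuousAt (fun θ : ℝ => θ ^ (3 * α - 1)) 0 :=
      Real.continuousAt_rpow_const 0 _ (Or.inr (by linarith))
    have h2 := (h1.tendsto.const_mul ((C : ℝ) ^ 2 * 16 ^ α)).mono_left (nhdsWithin_le_nhds (s := Ioi 0))
    rw [Real.zero_rpow (by linarith), mul_zero] at h2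
    exact h2
  have hpos : 0 < (1 / (16 * V)) ^ (1 - α) := by positivity
  have hev := hlim.eventually (gt_mem_nhds hpos)
  have hev2 : ∀ᶠ θ : ℝ in 𝓝[>] 0, θ ≤ 1 / 4 :=
    nhdsWithin_le_nhds (eventually_le_nhds (by norm_num))
  obtain ⟨θ, h1, h2, h3⟩ := (hev.and (hev2.and self_mem_nhdsWithin)).exists
  exact absurd (key θ h3 h2) (not_le.2 h1)

end Vale.Agent.P074
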