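import Vale.Agent.P074.Key
import Mathlib.MeasureTheory.Function.SpecialFunctions.Inner

/-! Convex conjugates and the variance inequality (strong convexity of the dual functional). -/

open MeasureTheory Set Filter Topology
open scoped ENNReal NNReal RealInnerProductSpace

namespace Vale.Agent.P074

variable {d : ℕ}

/-- conjugate of `φ` restricted to `K` -/
noncomputable def conj (K : Set (E d)) (φ : E d → ℝ) (y : E d) : ℝ := ⨆ x : K, (⟪y, x⟫ - φ x)

lemma Src.nonempty {K : Set (E d)} {R : ℝ} (hK : Src K R) : K.Nonempty :=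
  hK.int.mono interior_subset

lemma le_conj {K : Set (E d)} {R : ℝ} (hK : Src K R) {φ : E d → ℝ} (hφ : Continuous φ) (y : E d)
    {x : E d} (hx : x ∈ K) : ⟪y, x⟫ - φ x ≤ conj K φ y := by
  have hb : BddAbove (range fun x : K => ⟪y, (x : E d)⟫ - φ x) := by
    have := hK.cpt.bddAbove_image (f := fun x => ⟪y, x⟫ - φ x) (by fun_prop)
    rwa [image_eq_range] at this
  exact le_ciSup hb ⟨x, hx⟩

lemma conj_le {K : Set (E d)} {R : ℝ} (hK : Src K R) {φ : E d → ℝ} {y : E d} {c : ℝ}
    (h : ∀ x ∈ K, ⟪y, x⟫ - φ x ≤ c) : conj K φ y ≤ c := by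
  have := hK.nonempty.to_subtype
  exact ciSup_le fun x => h x x.2

lemma conj_lip {K : Set (E d)} {R : ℝ} (hK : Src K R) {φ : E d → ℝ} (hφ : Continuous φ)
    (y y' : E d) : conj K φ y ≤ conj K φ y' + R * ‖y - y'‖ := by
  refine conj_le hK fun x hx => ?_
  have h1 := le_conj hK hφ y' hx
  have h2 : ⟪y - y', x⟫ ≤ R * ‖y - y'‖ := by
    refine (real_inner_le_norm _ _).trans ?_
    rw [mul_comm]; gcongr; exact hK.bdd x hx
  rw [inner_sub_left] at h2
  linarith

lemma continuous_of_lip {φ : E d → ℝ} {L : ℝ} (h : ∀ x x', φ x - φ x' ≤ L * ‖x - x'‖) :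
    Continuous φ :=
  (LipschitzWith.of_le_add_mul' L fun x y => by
    rw [dist_eq_norm]; linarith [h x y]).continuous

lemma continuous_conj {K : Set (E d)} {R : ℝ} (hK : Src K R) {φ : E d → ℝ} (hφ : Continuous φ) :
    Continuous (conj K φ) :=
  continuous_of_lip (L := R) fun x y => by linarith [conj_lip hK hφ x y]

/-- `T` is an almost everywhere subgradient selection of the convex Lipschitz function `φ` -/
structure IsPot (K : Set (E d)) (L : ℝ) (T : E d → E d) (φ : E d → ℝ) : Prop where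
  meas : Measurable T
  Lpos : 0 < L
  lip : ∀ x x', φ x - φ x' ≤ L * ‖x - x'‖
  cvx : ∀ x v, 2 * φ x ≤ φ (x + v) + φ (x - v)
  bdd : ∀ᵐ x ∂(unif K), ‖T x‖ ≤ L
  sub : ∀ᵐ x ∂(unif K), ∀ x', φ x + ⟪T x, x' - x⟫ ≤ φ x'

lemma exp_sub_sq {A s t : ℝ} (hs : -A ≤ s) (ht : -A ≤ t) :
    Real.exp (-A) ^ 2 * (s - t) ^ 2 ≤ (Real.exp s - Real.exp t) ^ 2 := by
  wlog h : t ≤ s generalizing s t
  · have := this ht hs (le_of_not_ge h)
    nlinarith
  have h1 : Real.exp s = Real.exp t * Real.exp (s - t) := by rw [← Real.exp_add]; congr 1; ring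
  have h2 := Real.add_one_le_exp (s - t)
  have h3 : Real.exp (-A) ≤ Real.exp t := Real.exp_le_exp.2 ht
  have h4 : Real.exp (-A) * (s - t) ≤ Real.exp s - Real.exp t := by
    calc _ ≤ Real.exp t * (s - t) := by gcongr
      _ ≤ Real.exp t * (Real.exp (s - t) - 1) :=
        mul_le_mul_of_nonneg_left (by linarith) (Real.exp_pos _).le
      _ = _ := by rw [h1]; ring
  rw [← mul_pow]
  have : 0 ≤ Real.exp (-A) * (s - t) := mul_nonneg (Real.exp_pos _).le (by linarith)
  gcongr

lemma Src.dist_le {K : Set (E d)} {R : ℝ} (hK : Src K R) {x y : E d} (hx : x ∈ K) (hy : y ∈ K) :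
    ‖x - y‖ ≤ 2 * R := by
  linarith [norm_sub_le x y, hK.bdd x hx, hK.bdd y hy]

lemma osc_le {K : Set (E d)} {R L : ℝ} (hK : Src K R) (hL : 0 < L) {φ : E d → ℝ}
    (h : ∀ x x', φ x - φ x' ≤ L * ‖x - x'‖) {x y : E d} (hx : x ∈ K) (hy : y ∈ K) :
    φ x - φ y ≤ 2 * R * L := by
  refine (h x y).trans ?_
  rw [mul_comm]; gcongr; exact hK.dist_le hx hy

/-- duality gap density -/
noncomputable def gap (K : Set (E d)) (φ : E d → ℝ) (T : E d → E d) (x : E d) : ℝ :=
  φ x + conj K φ (T x) - ⟪T x, x⟫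

lemma measurable_gap {K : Set (E d)} {R : ℝ} (hK : Src K R) {φ : E d → ℝ} (hφ : Continuous φ)
    {T : E d → E d} (hT : Measurable T) : Measurable (gap K φ T) :=
  (hφ.measurable.add ((continuous_conj hK hφ).measurable.comp hT)).sub (hT.inner measurable_id)

lemma gap_bounds {K : Set (E d)} {R L : ℝ} (hK : Src K R) (hL : 0 < L) {φ : E d → ℝ}
    (h : ∀ x x', φ x - φ x' ≤ L * ‖x - x'‖) {T : E d → E d} {x : E d} (hx : x ∈ K)
    (hT : ‖T x‖ ≤ L) : 0 ≤ gap K φ T x ∧ gap K φ T x ≤ 2 * (2 * R * L) := by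
  unfold gap
  constructor
  · linarith [le_conj hK (continuous_of_lip h) (T x) hx]
  · have : conj K φ (T x) ≤ 2 * (2 * R * L) + ⟪T x, x⟫ - φ x := by
      refine conj_le hK fun x' hx' => ?_
      have h1 := osc_le hK hL h hx hx'
      have h2 : ⟪T x, x' - x⟫ ≤ L * (2 * R) :=
        (real_inner_le_norm _ _).trans (by gcongr; exact hK.dist_le hx' hx)
      rw [inner_sub_right] at h2
      linarith
    linarith

theorem variance_ineq {K : Set (E d)} {R L : ℝ} (hK : Src K R) {T : E d → E d} {φ₁ φ : E d → ℝ}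
    (hp : IsPot K L T φ₁) (h : ∀ x x', φ x - φ x' ≤ L * ‖x - x'‖) :
    ∃ κ : ℝ, ∫ x, (φ x - φ₁ x - κ) ^ 2 ∂(unif K) ≤
      4 * Real.exp (12 * R * L) * ∫ x, gap K φ T x ∂(unif K) := by
  have hprob := hK.prob
  obtain ⟨x₀, hx₀⟩ := hK.nonempty
  have hL := hp.Lpos
  have hR := hK.Rpos
  have cφ := continuous_of_lip h
  have cφ₁ := continuous_of_lip hp.lip
  have mg := measurable_gap hK cφ hp.meas
  set M := 2 * R * L with hM
  have M0 : 0 < M := by positivity
  set a : E d → ℝ := fun x => Real.exp (-(φ₁ x - φ₁ x₀) / 2) with ha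
  set b : E d → ℝ := fun x => Real.exp (-(φ x - φ x₀) / 2) with hb
  have ca : Continuous a := by simp only [ha]; fun_prop
  have cb : Continuous b := by simp only [hb]; fun_prop
  have gb : ∀ᵐ x ∂(unif K), x ∈ K ∧ 0 ≤ gap K φ T x ∧ gap K φ T x ≤ 2 * M := by
    filter_upwards [hK.ae_mem, hp.bdd] with x hx hT
    exact ⟨hx, gap_bounds hK hL h hx hT⟩
  have jg : Integrable (gap K φ T) (unif K) :=
    hK.integrable_of_bound mg (2 * M) (gb.mono fun x hx => by rw [abs_of_nonneg hx.2.1]; exact hx.2.2)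
  have sq_exp : ∀ t : ℝ, Real.exp (t / 2) ^ 2 = Real.exp t := by
    intro t; rw [← Real.exp_nat_mul]; congr 1; push_cast; ring
  have bnd : ∀ {ψ : E d → ℝ}, (∀ x x', ψ x - ψ x' ≤ L * ‖x - x'‖) →
      Real.exp (-M) ≤ ∫ x, Real.exp (-(ψ x - ψ x₀) / 2) ^ 2 ∂(unif K) ∧
      ∫ x, Real.exp (-(ψ x - ψ x₀) / 2) ^ 2 ∂(unif K) ≤ Real.exp M := by
    intro ψ hψ
    have cψ := continuous_of_lip hψ
    constructor
    · calc Real.exp (-M) = ∫ _, Real.exp (-M) ∂(unif K) := by simp
        _ ≤ _ := by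
          refine integral_mono_ae (integrable_const _) (hK.integrable (by fun_prop)) ?_
          filter_upwards [hK.ae_mem] with x hx
          rw [sq_exp]
          exact Real.exp_le_exp.2 (by linarith [osc_le hK hL hψ hx hx₀])
    · calc _ ≤ ∫ _, Real.exp M ∂(unif K) := by
            refine integral_mono_ae (hK.integrable (by fun_prop)) (integrable_const _) ?_
            filter_upwards [hK.ae_mem] with x hx
            rw [sq_exp]
            exact Real.exp_le_exp.2 (by linarith [osc_le hK hL hψ hx₀ hx])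
        _ = _ := by simp
  have ab_le : ∀ x ∈ K, a x * b x ≤ Real.exp M := by
    intro x hx
    simp only [ha, hb]
    rw [← Real.exp_add]
    exact Real.exp_le_exp.2 (by linarith [osc_le hK hL h hx₀ hx, osc_le hK hL hp.lip hx₀ hx])
  have ab_pos : ∀ x, 0 < a x * b x := fun x => mul_pos (Real.exp_pos _) (Real.exp_pos _)
  have jH : Integrable (fun x => a x * b x * Real.exp (gap K φ T x / 2)) (unif K) := by
    refine hK.integrable_of_bound (by fun_prop) (Real.exp M * Real.exp M) ?_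
    filter_upwards [gb] with x hx
    rw [abs_of_pos (mul_pos (ab_pos x) (Real.exp_pos _))]
    exact mul_le_mul (ab_le x hx.1) (Real.exp_le_exp.2 (by linarith [hx.2.2])) (Real.exp_pos _).le
      (Real.exp_pos _).le
  have hpl := hK.pl (f := fun x => a x ^ 2) (g := fun x => b x ^ 2)
    (h := fun x => a x * b x * Real.exp (gap K φ T x / 2)) (by fun_prop) (by fun_prop)
    (by fun_prop) (hK.integrable (by fun_prop)) (hK.integrable (by fun_prop)) jH
    (fun x => sq_nonneg _) (fun x => sq_nonneg _)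
    (fun x => (mul_pos (ab_pos x) (Real.exp_pos _)).le) (by
      filter_upwards [hp.sub] with m hm x hx y hy hxy
      simp only [ha, hb, mul_pow, sq_exp]
      simp only [← Real.exp_add]
      refine Real.exp_le_exp.2 ?_
      have h1 := hm x
      have h2 := le_conj hK cφ (T m) hy
      have h3 : x - m = m - y := by rw [← hxy]; module
      rw [h3, inner_sub_right] at h1
      unfold gap
      linarith)
  set IA := ∫ x, a x ^ 2 ∂(unif K) with hIA
  set IB := ∫ x, b x ^ 2 ∂(unif K) with hIB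
  set IH := ∫ x, a x * b x * Real.exp (gap K φ T x / 2) ∂(unif K) with hIH
  have bA : Real.exp (-M) ≤ IA ∧ IA ≤ Real.exp M := bnd hp.lip
  have bB : Real.exp (-M) ≤ IB ∧ IB ≤ Real.exp M := bnd h
  have IApos : 0 < IA := (Real.exp_pos _).trans_le bA.1
  have IBpos : 0 < IB := (Real.exp_pos _).trans_le bB.1
  set c := Real.sqrt (IA / IB) with hc
  have cpos : 0 < c := Real.sqrt_pos.2 (by positivity)
  have hc2 : c ^ 2 * IB = IA := by rw [hc, Real.sq_sqrt (by positivity)]; field_simp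
  have emul : Real.exp M * Real.exp (-M) = 1 := by rw [← Real.exp_add]; simp
  have c_le : c ≤ Real.exp M := by
    have h1 : c ^ 2 * Real.exp (-M) ≤ Real.exp M := by
      calc _ ≤ c ^ 2 * IB := by gcongr; exact bB.1
        _ ≤ _ := by rw [hc2]; exact bA.2
    have h2 : c ^ 2 ≤ Real.exp M ^ 2 := by
      calc c ^ 2 = c ^ 2 * Real.exp (-M) * Real.exp M := by linear_combination -(c ^ 2) * emul
        _ ≤ Real.exp M * Real.exp M := by gcongr
        _ = _ := by ring
    exact (sq_le_sq₀ cpos.le (Real.exp_pos _).le).1 h2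
  have le_c : Real.exp (-M) ≤ c := by
    have h1 : Real.exp (-M) ≤ c ^ 2 * Real.exp M := by
      calc _ ≤ IA := bA.1
        _ = c ^ 2 * IB := hc2.symm
        _ ≤ _ := by gcongr; exact bB.2
    have h2 : Real.exp (-M) ^ 2 ≤ c ^ 2 := by
      calc Real.exp (-M) ^ 2 = Real.exp (-M) * Real.exp (-M) := by ring
        _ ≤ c ^ 2 * Real.exp M * Real.exp (-M) := by gcongr
        _ = _ := by linear_combination (c ^ 2) * emul
    exact (sq_le_sq₀ (Real.exp_pos _).le cpos.le).1 h2
  have IH0 : 0 ≤ IH := integral_nonneg fun x => (mul_pos (ab_pos x) (Real.exp_pos _)).le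
  have h1 : IA ≤ c * IH := by
    have h2 : IA ^ 2 ≤ (c * IH) ^ 2 := by
      calc IA ^ 2 = c ^ 2 * (IA * IB) := by linear_combination -IA * hc2
        _ ≤ c ^ 2 * IH ^ 2 := by gcongr
        _ = _ := by ring
    exact (sq_le_sq₀ IApos.le (by positivity)).1 h2
  have h2 : ∫ x, (a x - c * b x) ^ 2 ∂(unif K) = 2 * IA - 2 * c * ∫ x, a x * b x ∂(unif K) := by
    have : ∫ x, (a x - c * b x) ^ 2 ∂(unif K) =
        ∫ x, a x ^ 2 + c ^ 2 * b x ^ 2 - 2 * c * (a x * b x) ∂(unif K) :=
      integral_congr_ae (Eventually.of_forall fun x => by ring)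
    rw [this, integral_sub (hK.integrable (by fun_prop)) (hK.integrable (by fun_prop)),
      integral_add (hK.integrable (by fun_prop)) (hK.integrable (by fun_prop)),
      integral_const_mul, integral_const_mul, ← hIA, ← hIB, hc2]
    ring
  have h3 : IH ≤ ∫ x, a x * b x ∂(unif K) +
      Real.exp M * Real.exp M / 2 * ∫ x, gap K φ T x ∂(unif K) := by
    rw [← integral_const_mul, ← integral_add (hK.integrable (by fun_prop)) (jg.const_mul _)]
    refine integral_mono_ae jH ((hK.integrable (by fun_prop)).add (jg.const_mul _)) ?_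
    filter_upwards [gb] with x hx
    set g := gap K φ T x
    have h4 : Real.exp (g / 2) - 1 ≤ g / 2 * Real.exp M := by
      have h5 := Real.add_one_le_exp (-(g / 2))
      have h6 : Real.exp (g / 2) * Real.exp (-(g / 2)) = 1 := by rw [← Real.exp_add]; simp
      have h7 : Real.exp (g / 2) ≤ Real.exp M := Real.exp_le_exp.2 (by linarith [hx.2.2])
      have h8 := mul_le_mul_of_nonneg_left h5 (Real.exp_pos (g / 2)).le
      have h9 := mul_le_mul_of_nonneg_left h7 (show 0 ≤ g / 2 by linarith [hx.2.1])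
      linarith
    have h5 : a x * b x * (Real.exp (g / 2) - 1) ≤ Real.exp M * (g / 2 * Real.exp M) :=
      (mul_le_mul_of_nonneg_left h4 (ab_pos x).le).trans
        (mul_le_mul_of_nonneg_right (ab_le x hx.1) (by have := hx.2.1; positivity))
    linarith
  have G0 : 0 ≤ ∫ x, gap K φ T x ∂(unif K) := integral_nonneg_of_ae (gb.mono fun x hx => hx.2.1)
  have h4 : ∫ x, (a x - c * b x) ^ 2 ∂(unif K) ≤
      Real.exp M ^ 3 * ∫ x, gap K φ T x ∂(unif K) := by
    have h5 := mul_le_mul_of_nonneg_left h3 cpos.le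
    have h6 : c * (Real.exp M * Real.exp M / 2 * ∫ x, gap K φ T x ∂(unif K)) ≤
        Real.exp M * (Real.exp M * Real.exp M / 2 * ∫ x, gap K φ T x ∂(unif K)) := by gcongr
    rw [h2]
    linarith
  refine ⟨φ x₀ - φ₁ x₀ + 2 * Real.log c, ?_⟩
  have h5 : ∫ x, (φ x - φ₁ x - (φ x₀ - φ₁ x₀ + 2 * Real.log c)) ^ 2 ∂(unif K) ≤
      ∫ x, 4 * Real.exp M ^ 3 * (a x - c * b x) ^ 2 ∂(unif K) := by
    refine integral_mono_ae (hK.integrable (by fun_prop)) (hK.integrable (by fun_prop)) ?_
    filter_upwards [hK.ae_mem] with x hx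
    have hlog : -M ≤ Real.log c := (Real.le_log_iff_exp_le cpos).2 le_c
    have h6 := exp_sub_sq (A := 3 * M / 2) (s := -(φ₁ x - φ₁ x₀) / 2)
      (t := Real.log c + -(φ x - φ x₀) / 2) (by linarith [osc_le hK hL hp.lip hx hx₀])
      (by linarith [osc_le hK hL h hx hx₀])
    rw [Real.exp_add, Real.exp_log cpos] at h6
    have h7 : Real.exp M ^ 3 * Real.exp (-(3 * M / 2)) ^ 2 = 1 := by
      rw [← Real.exp_nat_mul, ← Real.exp_nat_mul, ← Real.exp_add, ← Real.exp_zero]
      congr 1; push_cast; ring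
    have h8 := mul_le_mul_of_nonneg_left h6 (show 0 ≤ 4 * Real.exp M ^ 3 by positivity)
    refine le_trans (le_of_eq ?_) h8
    linear_combination
      (-(φ x - φ₁ x - (φ x₀ - φ₁ x₀ + 2 * Real.log c)) ^ 2) * h7
  rw [integral_const_mul] at h5
  have h6 : Real.exp (12 * R * L) = Real.exp M ^ 3 * Real.exp M ^ 3 := by
    rw [← Real.exp_nat_mul, ← Real.exp_add]; congr 1; rw [hM]; push_cast; ring
  rw [h6]
  calc _ ≤ _ := h5
    _ ≤ 4 * Real.exp M ^ 3 * (Real.exp M ^ 3 * ∫ x, gap K φ T x ∂(unif K)) := by gcongr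
    _ = _ := by ring

lemma IsPot.integrable_inner {K : Set (E d)} {R L : ℝ} (hK : Src K R) {T : E d → E d}
    {φ₁ : E d → ℝ} (hp : IsPot K L T φ₁) : Integrable (fun x => ⟪T x, x⟫) (unif K) := by
  refine hK.integrable_of_bound (hp.meas.inner measurable_id) (L * R) ?_
  filter_upwards [hK.ae_mem, hp.bdd] with x hx hT
  refine (abs_real_inner_le_norm _ _).trans ?_
  have := hp.Lpos
  gcongr; exact hK.bdd x hx

lemma IsPot.integrable_conj {K : Set (E d)} {R L : ℝ} (hK : Src K R) {T : E d → E d}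
    {φ₁ φ : E d → ℝ} (hp : IsPot K L T φ₁) (hφ : Continuous φ) :
    Integrable (fun x => conj K φ (T x)) (unif K) := by
  refine hK.integrable_of_bound ((continuous_conj hK hφ).measurable.comp hp.meas)
    (|conj K φ 0| + R * L) ?_
  filter_upwards [hp.bdd] with x hT
  have h1 := conj_lip hK hφ (T x) 0
  have h2 := conj_lip hK hφ 0 (T x)
  rw [sub_zero] at h1
  rw [zero_sub, norm_neg] at h2
  have h3 : R * ‖T x‖ ≤ R * L := mul_le_mul_of_nonneg_left hT hK.Rpos.le
  rw [abs_le]
  constructor <;> linarith [le_abs_self (conj K φ 0), neg_abs_le (conj K φ 0)]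

/-- second order lower bound for the dual functional at a perturbed source -/
theorem dual_lower {K : Set (E d)} {R L : ℝ} (hK : Src K R) {T : E d → E d} {φ₁ φ η : E d → ℝ}
    (hp : IsPot K L T φ₁) (h : ∀ x x', φ x - φ x' ≤ L * ‖x - x'‖) (cη : Continuous η)
    (η0 : ∫ x, η x ∂(unif K) = 0) :
    ∫ x, ⟪T x, x⟫ ∂(unif K) + ∫ x, φ₁ x * η x ∂(unif K)
      - Real.exp (12 * R * L) * ∫ x, η x ^ 2 ∂(unif K) ≤
    ∫ x, φ x * (1 + η x) ∂(unif K) + ∫ x, conj K φ (T x) ∂(unif K) := by
  obtain ⟨κ, hκ⟩ := variance_ineq hK hp h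
  have cφ := continuous_of_lip h
  have cφ₁ := continuous_of_lip hp.lip
  set C := Real.exp (12 * R * L)
  have C0 : 0 < C := Real.exp_pos _
  have e1 : ∫ x, gap K φ T x ∂(unif K) = ∫ x, φ x ∂(unif K) + ∫ x, conj K φ (T x) ∂(unif K)
      - ∫ x, ⟪T x, x⟫ ∂(unif K) := by
    unfold gap
    rw [integral_sub (f := fun x => φ x + conj K φ (T x))
      ((hK.integrable cφ).add (hp.integrable_conj hK cφ)) (hp.integrable_inner hK),
      integral_add (hK.integrable cφ) (hp.integrable_conj hK cφ)]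
  have e2 : ∫ x, φ x + φ₁ x * η x + κ * η x - (4 * C)⁻¹ * (φ x - φ₁ x - κ) ^ 2 - C * η x ^ 2
      ∂(unif K) ≤ ∫ x, φ x * (1 + η x) ∂(unif K) := by
    refine integral_mono (hK.integrable (by fun_prop)) (hK.integrable (by fun_prop)) fun x => ?_
    have h1 : 0 ≤ (4 * C)⁻¹ * (φ x - φ₁ x - κ + 2 * C * η x) ^ 2 := by positivity
    have h2 : (4 * C)⁻¹ * (φ x - φ₁ x - κ + 2 * C * η x) ^ 2 = (4 * C)⁻¹ * (φ x - φ₁ x - κ) ^ 2
        + (φ x - φ₁ x - κ) * η x + C * η x ^ 2 := by field_simp; ring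
    simp only
    linarith
  rw [integral_sub (hK.integrable (by fun_prop)) (hK.integrable (by fun_prop)),
    integral_sub (hK.integrable (by fun_prop)) (hK.integrable (by fun_prop)),
    integral_add (hK.integrable (by fun_prop)) (hK.integrable (by fun_prop)),
    integral_add (hK.integrable (by fun_prop)) (hK.integrable (by fun_prop)),
    integral_const_mul, integral_const_mul, integral_const_mul, η0] at e2
  have e3 : (4 * C)⁻¹ * ∫ x, (φ x - φ₁ x - κ) ^ 2 ∂(unif K) ≤ ∫ x, gap K φ T x ∂(unif K) := by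
    rw [inv_mul_le_iff₀ (by positivity)]; exact hκ
  linarith

/-- strong duality at the potential -/
theorem dual_upper {K : Set (E d)} {R L : ℝ} (hK : Src K R) {T : E d → E d} {φ₁ : E d → ℝ}
    (hp : IsPot K L T φ₁) :
    ∫ x, φ₁ x ∂(unif K) + ∫ x, conj K φ₁ (T x) ∂(unif K) ≤ ∫ x, ⟪T x, x⟫ ∂(unif K) := by
  have cφ₁ := continuous_of_lip hp.lip
  rw [← integral_add (hK.integrable cφ₁) (hp.integrable_conj hK cφ₁)]
  refine integral_mono_ae ((hK.integrable cφ₁).add (hp.integrable_conj hK cφ₁))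
    (hp.integrable_inner hK) ?_
  filter_upwards [hp.sub] with x hx
  have : conj K φ₁ (T x) ≤ ⟪T x, x⟫ - φ₁ x := by
    refine conj_le hK fun x' _ => ?_
    have := hx x'
    rw [inner_sub_right] at this
    linarith
  linarith

end Vale.Agent.P074
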